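import Crest.Agent.R264.Base.Rem
import Crest.Agent.R264.Base.Top
import Crest.Agent.R264.Base.One

set_option autoImplicit false
set_option linter.unusedSectionVars false
open Set Filter Topology Metric Complex

namespace Crest.Agent.R264

variable {E : Type} [NormedAddCommGroup E] [NormedSpace ℂ E] [NormedSpace ℝ E] [IsScalarTower ℝ ℂ E]
  [FiniteDimensional ℂ E] {A B : Type} [Fintype A] [Fintype B] {G : Geo A B} {R : Amb A B → ℝ} {n : ℕ} {X : Set E}
  {π : E → Amb A B} {S : Sq E A B}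

/-! Elementary facts about `Geo`: coordinates, the model, translations. -/

/-- standing hypotheses upstairs -/
structure Up (n : ℕ) (X : Set E) (π : E → Amb A B) : Prop where
  cm : CM n X
  dim : Module.finrank ℂ (Amb A B) = n
  an : AnalyticOn ℂ π X
  bdd : Bornology.IsBounded (π '' X)
  reg : (Reg X π).Nonempty

theorem finrank_amb : Module.finrank ℂ (Amb A B) = Fintype.card B + Fintype.card A + 1 := by
  simp only [Module.finrank_prod, Module.finrank_self, Module.finrank_fintype_fun_eq_card]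
  ring

theorem Geo.coa_eqs {z : Amb A B} (hz : z ∈ G.Z) : ∀ f ∈ G.Eqs, f z = 0 :=
  (connectedComponentIn_subset _ _ hz).1

theorem Geo.OK.coa_an (h : G.OK R) {z : Amb A B} (hz : z ∈ G.Z) : ∀ᶠ τ in 𝓝 z.2.2, AnalyticAt ℂ (G.b z) τ :=
  (h.anb z hz).eventually_analyticAt

/-- branches through nearby points of the branch agree -/
theorem Geo.OK.b_germ (h : G.OK R) {z : Amb A B} (hz : z ∈ G.Z) :
    ∀ᶠ τ in 𝓝 z.2.2, G.b (G.b z τ) =ᶠ[𝓝 τ] G.b z ∧ G.co (G.b z τ) =ᶠ[𝓝 (G.b z τ)] G.co z := by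
  have key : ∀ᶠ τ in 𝓝 z.2.2, G.b (G.b z τ) =ᶠ[𝓝 τ] G.b z ∧ (G.b z τ).2.2 = τ := by
    filter_upwards [h.coa_an hz, (h.bt z hz).eventually_nhds, h.bt z hz] with τ ha hb hτ
    refine ⟨?_, hτ.1⟩
    have h1 := ha.continuousAt.eventually (h.bu _ hτ.2)
    filter_upwards [h1, hb] with τ' h1' hb'
    have := h1' (Geo.coa_eqs hb'.2)
    rwa [hb'.1] at this
  filter_upwards [key] with τ hτ
  refine ⟨hτ.1, ?_⟩
  have hc : Tendsto (fun q : Amb A B => q.2.2) (𝓝 (G.b z τ)) (𝓝 τ) := by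
    have : ContinuousAt (fun q : Amb A B => q.2.2) (G.b z τ) := by fun_prop
    simpa only [ContinuousAt, hτ.2] using this
  filter_upwards [hc.eventually hτ.1] with q hq
  simp only [Geo.co, hq]

theorem Geo.OK.near (h : G.OK R) {z : Amb A B} (hz : z ∈ G.Z) : ∀ᶠ q in 𝓝 z, q ∈ G.Z → G.b z q.2.2 = q := by
  filter_upwards [h.bu z hz] with q hq hZ
  exact hq (Geo.coa_eqs hZ)

theorem Geo.OK.nd_near (h : G.OK R) {z : Amb A B} (hz : z ∈ G.Z) (hn : G.nd z) :
    (∀ᶠ τ in 𝓝 z.2.2, G.nd (G.b z τ)) ∧ ContinuousAt (fun τ => G.xi (G.b z τ)) z.2.2 ∧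
      ContinuousAt (fun τ => (G.xi (G.b z τ)).inverse) z.2.2 ∧ ContinuousAt (fun τ => G.eta (G.b z τ)) z.2.2 := by
  have hxi : ContinuousAt (fun τ => G.xi (G.b z τ)) z.2.2 :=
    continuousAt_clm_apply.2 fun a => (h.anxi z hz a).continuousAt
  have heta : ContinuousAt (fun τ => G.eta (G.b z τ)) z.2.2 :=
    continuousAt_clm_apply.2 fun a => continuousAt_clm_apply.2 fun a' => (h.aneta z hz a a').continuousAt
  have hn' : (G.xi (G.b z z.2.2)).IsInvertible := by rw [h.bz z hz]; exact hn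
  refine ⟨?_, hxi, ?_, heta⟩
  · obtain ⟨e, he⟩ := hn'
    have := e.nhds
    rw [he] at this
    filter_upwards [hxi.eventually this] with τ hτ
    exact hτ
  · exact ContinuousAt.comp (f := fun τ => G.xi (G.b z τ)) (hn'.contDiffAt_map_inverse (n := 0)).continuousAt hxi

/-- `co z` is a local biholomorphism, with the explicit inverse `ico` -/
noncomputable def Geo.ico (G : Geo A B) (z m : Amb A B) : Amb A B :=
  ((G.b z m.2.2).1 + (m.1 - G.th (G.b z m.2.2) (0, m.2.1)) / G.th (G.b z m.2.2) (1, 0),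
    (G.b z m.2.2).2.1 + m.2.1, m.2.2)

theorem Geo.coa_th (G : Geo A B) (y : Amb A B) (w : ℂ) (u : A → ℂ) :
    G.th y (w, u) = w * G.th y (1, 0) + G.th y (0, u) := by
  have : (w, u) = w • ((1 : ℂ), (0 : A → ℂ)) + (0, u) := by simp
  rw [this, map_add, map_smul, smul_eq_mul]

theorem Geo.OK.co_ico (h : G.OK R) {z : Amb A B} (hz : z ∈ G.Z) : ∃ T ∈ 𝓝 z.2.2, IsOpen T ∧
    Bih {q : Amb A B | q.2.2 ∈ T} {m : Amb A B | m.2.2 ∈ T} (G.co z) (G.ico z) ∧
    ∀ τ ∈ T, G.co z (G.b z τ) = (0, 0, τ) ∧ G.ico z (0, 0, τ) = G.b z τ ∧ (G.b z τ).2.2 = τ ∧ G.b z τ ∈ G.Z := by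
  have h0 : ∀ᶠ τ in 𝓝 z.2.2, G.th (G.b z τ) (1, 0) ≠ 0 := by
    filter_upwards [h.bt z hz] with τ hτ
    exact h.th0 _ hτ.2
  obtain ⟨T, hT, hTo, hTz⟩ := _root_.eventually_nhds_iff.1
    ((h.coa_an hz).and ((h.anth z hz).eventually_analyticAt.and (h0.and (h.bt z hz))))
  have hp : ∀ q : Amb A B, AnalyticAt ℂ (fun q : Amb A B => q.2.2) q := fun q => analyticAt_snd.comp analyticAt_snd
  have hb : ∀ q : Amb A B, q.2.2 ∈ T → AnalyticAt ℂ (fun q : Amb A B => G.b z q.2.2) q := fun q hq =>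
    AnalyticAt.comp (g := G.b z) (f := fun q : Amb A B => q.2.2) (hT _ hq).1 (hp q)
  have hth : ∀ q : Amb A B, q.2.2 ∈ T → AnalyticAt ℂ (fun q : Amb A B => G.th (G.b z q.2.2)) q := fun q hq =>
    AnalyticAt.comp (g := fun τ => G.th (G.b z τ)) (f := fun q : Amb A B => q.2.2) (hT _ hq).2.1 (hp q)
  have hap : ∀ (q : Amb A B) (v : Amb A B → ℂ × (A → ℂ)), q.2.2 ∈ T → AnalyticAt ℂ v q →
      AnalyticAt ℂ (fun q : Amb A B => G.th (G.b z q.2.2) (v q)) q := fun q v hq hv =>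
    ((ContinuousLinearMap.id ℂ ((ℂ × (A → ℂ)) →L[ℂ] ℂ)).analyticAt_bilinear _).comp₂ (hth q hq) hv
  refine ⟨T, hTo.mem_nhds hTz, hTo, ⟨?_, ?_, ?_, ?_, ?_, ?_⟩, ?_⟩
  · intro q hq
    refine AnalyticAt.analyticWithinAt ?_
    have hb' := hb q hq
    have h1 : AnalyticAt ℂ (fun q : Amb A B => q.1 - (G.b z q.2.2).1) q :=
      analyticAt_fst.sub (analyticAt_fst.comp hb')
    have h2 : AnalyticAt ℂ (fun q : Amb A B => q.2.1 - (G.b z q.2.2).2.1) q :=
      (analyticAt_fst.comp analyticAt_snd).sub (analyticAt_fst.comp (analyticAt_snd.comp hb'))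
    exact (hap q _ hq (h1.prod h2)).prod (h2.prod (hp q))
  · intro m hm
    refine AnalyticAt.analyticWithinAt ?_
    have hb' := hb m hm
    have h2 : AnalyticAt ℂ (fun q : Amb A B => q.2.1) m := analyticAt_fst.comp analyticAt_snd
    have h3 := hap m (fun q => (0, q.2.1)) hm (analyticAt_const.prod h2)
    have h4 := hap m (fun _ => (1, 0)) hm analyticAt_const
    exact ((analyticAt_fst.comp hb').add ((analyticAt_fst.sub h3).div h4 (hT _ hm).2.2.1)).prod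
      (((analyticAt_fst.comp (analyticAt_snd.comp hb')).add h2).prod (hp m))
  · intro q hq
    exact hq
  · intro q hq
    exact hq
  · intro q hq
    have h0 := (hT _ hq).2.2.1
    refine Prod.ext ?_ (Prod.ext ?_ rfl)
    · simp only [Geo.ico, Geo.co]
      rw [G.coa_th _ (q.1 - _)]
      field_simp
      ring
    · simp [Geo.ico, Geo.co]
  · intro m hm
    have h0 := (hT _ hm).2.2.1
    refine Prod.ext ?_ (Prod.ext ?_ rfl)
    · simp only [Geo.ico, Geo.co, add_sub_cancel_left]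
      rw [G.coa_th _ (_ / _)]
      field_simp
      ring
    · simp [Geo.ico, Geo.co]
  · intro τ hτ
    have h1 := (hT _ hτ).2.2.2
    refine ⟨?_, ?_, h1.1, h1.2⟩
    · simp only [Geo.co, h1.1, sub_self]
      rw [show ((0 : ℂ), (0 : A → ℂ)) = 0 from rfl, map_zero]
    · refine Prod.ext ?_ (Prod.ext ?_ h1.1.symm)
      · simp only [Geo.ico]
        rw [show ((0 : ℂ), (0 : A → ℂ)) = 0 from rfl, map_zero]
        simp
      · simp [Geo.ico]

theorem Geo.coa_Q0 (G : Geo A B) (y : Amb A B) : G.Q y 0 = 0 := by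
  simp [Geo.Q]

theorem Geo.OK.r_self (h : G.OK R) {z : Amb A B} (hz : z ∈ G.Z) (hn : G.nd z) :
    G.r z z = 0 ∧ fderiv ℝ (G.r z) z ≠ 0 ∧ ∀ᶠ τ in 𝓝 z.2.2, G.r z (G.b z τ) = 0 := by
  obtain ⟨T, hT, -, -, hco⟩ := h.co_ico hz
  have hcb : Tendsto (G.b z) (𝓝 z.2.2) (𝓝 z) := by
    have := (h.anb z hz).continuousAt
    simpa only [ContinuousAt, h.bz z hz] using this
  have h3 : ∀ᶠ τ in 𝓝 z.2.2, G.r z (G.b z τ) = 0 := by
    filter_upwards [hcb.eventually (h.rexp z hz hn 1 one_pos), hT] with τ h1 hτ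
    rw [(hco τ hτ).1] at h1
    simpa [Geo.coa_Q0] using h1
  have h1 : G.r z z = 0 := by
    have := h3.self_of_nhds
    rwa [h.bz z hz] at this
  refine ⟨h1, fun hd => ?_, h3⟩
  have h0 := h.th0 z hz
  set v : Amb A B := (I / G.th z (1, 0), 0, 0) with hv
  have hder : HasDerivAt (fun t : ℝ => G.r z (z + t • v)) 0 0 := by
    have hl : HasDerivAt (fun t : ℝ => z + t • v) v 0 := by
      simpa using ((hasDerivAt_id (0 : ℝ)).smul_const v).const_add z
    have hf : HasFDerivAt (G.r z) (fderiv ℝ (G.r z) z) (z + (0 : ℝ) • v) := by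
      simpa using (h.anr z hz hn).differentiableAt.hasFDerivAt
    have := hf.comp_hasDerivAt (0 : ℝ) hl
    rw [hd] at this
    exact this
  have hc : Tendsto (fun t : ℝ => z + t • v) (𝓝 0) (𝓝 z) := by
    have : ContinuousAt (fun t : ℝ => z + t • v) 0 := by fun_prop
    simpa [ContinuousAt] using this
  have hcoq : ∀ t : ℝ, G.co z (z + t • v) = ((t : ℂ) * I, 0, z.2.2) := by
    intro t
    have e : (z + t • v).2.2 = z.2.2 := by simp [hv]
    have e1 : (z + t • v).2.1 = z.2.1 := by simp [hv]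
    have e2 : (z + t • v).1 = z.1 + t * (I / G.th z (1, 0)) := by simp [hv]
    simp only [Geo.co, e, e1, e2, h.bz z hz, sub_self, add_sub_cancel_left]
    rw [G.coa_th, show ((0 : ℂ), (0 : A → ℂ)) = 0 from rfl, map_zero]
    congr 1
    field_simp
    ring
  have h4 : ∀ᶠ t : ℝ in 𝓝 0, |G.r z (z + t • v) - t| ≤ 1 / 2 * |t| := by
    filter_upwards [hc.eventually (h.rexp z hz hn (1 / 2) (by norm_num))] with t ht
    rw [hcoq] at ht
    simpa [Geo.coa_Q0] using ht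
  have h5 := (hasDerivAt_iff_isLittleO_nhds_zero.1 hder).bound (c := 1 / 4) (by norm_num)
  obtain ⟨t, ht, ht0⟩ := ((h4.and h5).filter_mono (nhdsWithin_le_nhds (s := Ioi (0 : ℝ)))).and
    self_mem_nhdsWithin |>.exists
  have ht0' : 0 < t := ht0
  obtain ⟨ha, hb⟩ := ht
  simp only [zero_add, zero_smul, add_zero, h1, sub_zero, smul_zero, Real.norm_eq_abs] at hb
  rw [abs_of_pos ht0'] at ha hb
  have := abs_le.1 ha
  have := abs_le.1 hb
  linarith [this.1]

theorem Geo.Q_smul (G : Geo A B) (z : Amb A B) (c : ℝ) (u : A → ℂ) : G.Q z (c • u) = c ^ 2 * G.Q z u := by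
  simp only [Geo.Q, map_smul, smul_apply, Complex.real_smul, Complex.im_ofReal_mul]
  ring

theorem Geo.InM_sc (G : Geo A B) (z m : Amb A B) {l : ℝ} (hl : l ≠ 0) : G.InM z (sc l m) ↔ G.InM z m := by
  have hl2 : 0 < l ^ 2 := by positivity
  simp only [Geo.InM, sc, G.Q_smul, Complex.im_ofReal_mul]
  exact mul_lt_mul_iff_right₀ hl2

/-- Heisenberg translations of the model -/
noncomputable def Geo.tr (G : Geo A B) (z : Amb A B) (c : ℝ) (a : A → ℂ) (m : Amb A B) : Amb A B :=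
  (m.1 + G.be (G.b z m.2.2) a m.2.1 + G.eta (G.b z m.2.2) a a + c, m.2.1 + G.xi (G.b z m.2.2) a, m.2.2)

theorem cob_Q_xi {z : Amb A B} (hn : G.nd z) (a : A → ℂ) : G.Q z (G.xi z a) = (G.eta z a a).im := by
  rw [Geo.Q, ContinuousLinearMap.IsInvertible.inverse_apply_self hn]

theorem cob_skew (h : G.OK R) (a a' : A → ℂ) : G.ka a' a = -G.ka a a' := by
  have := h.skew (a + a')
  simp only [map_add, add_apply, h.skew] at this
  linarith

/-- `Im w - Q u` is invariant -/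
theorem Geo.OK.tr_inv (h : G.OK R) {z m : Amb A B} (hz : G.b z m.2.2 ∈ G.Z) (hn : G.nd (G.b z m.2.2)) (c : ℝ)
    (a : A → ℂ) : (G.tr z c a m).1.im - G.Q (G.b z m.2.2) (G.tr z c a m).2.1 = m.1.im - G.Q (G.b z m.2.2) m.2.1 := by
  obtain ⟨b, hb⟩ := hn.surjective m.2.1
  have e1 : (G.tr z c a m).2.1 = G.xi (G.b z m.2.2) (b + a) := by
    rw [map_add, hb]; rfl
  have e2 : (G.tr z c a m).1 = m.1 + G.be (G.b z m.2.2) a m.2.1 + G.eta (G.b z m.2.2) a a + c := rfl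
  rw [e1, e2, ← hb, cob_Q_xi hn, cob_Q_xi hn, h.rel _ hz]
  simp only [map_add, add_apply, h.symm _ hz b a]
  simp
  ring

theorem Geo.OK.tr_tr (h : G.OK R) {z m : Amb A B} (hz : G.b z m.2.2 ∈ G.Z) (c c' : ℝ) (a a' : A → ℂ) :
    G.tr z c a (G.tr z c' a' m) = G.tr z (c + c' + G.ka a a') (a + a') m := by
  refine Prod.ext ?_ (Prod.ext ?_ rfl)
  · simp only [Geo.tr, map_add, add_apply, h.rel _ hz, h.symm _ hz a' a]
    push_cast
    ring
  · simp only [Geo.tr, map_add]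
    abel

theorem Geo.sc_tr (G : Geo A B) (z m : Amb A B) (l c : ℝ) (a : A → ℂ) :
    sc l (G.tr z c a m) = G.tr z (l ^ 2 * c) (l • a) (sc l m) := by
  refine Prod.ext ?_ (Prod.ext ?_ rfl)
  · simp only [Geo.tr, sc, map_smul, smul_apply, ContinuousLinearMap.map_smul_of_tower, real_smul]
    push_cast
    ring
  · simp only [Geo.tr, sc, map_smul, smul_add]

theorem cob_Q_cont (h : G.OK R) {z : Amb A B} (hz : z ∈ G.Z) (hn : G.nd z) {Y : Type} [TopologicalSpace Y]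
    {f : Y → B → ℂ} {g : Y → A → ℂ} {y : Y} (hf : ContinuousAt f y) (hg : ContinuousAt g y) (e : f y = z.2.2) :
    ContinuousAt (fun y => G.Q (G.b z (f y)) (g y)) y := by
  obtain ⟨-, -, h2, h3⟩ := h.nd_near hz hn
  rw [← e] at h2 h3
  have h4 := (h2.comp hf).clm_apply hg
  exact continuous_im.continuousAt.comp (((h3.comp hf).clm_apply h4).clm_apply h4)

/-- the model over a small connected open set is open and connected -/
theorem Geo.OK.MT_open (h : G.OK R) {z : Amb A B} (hz : z ∈ G.Z) (hn : G.nd z) : ∃ T₀ ∈ 𝓝 z.2.2,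
    ContinuousOn (fun m : Amb A B => G.Q (G.b z m.2.2) m.2.1) {m | m.2.2 ∈ T₀} ∧
    ∀ T ⊆ T₀, IsOpen T → IsPreconnected T → IsOpen (G.MT z T) ∧ IsPreconnected (G.MT z T) ∧
      ∀ c a, AnalyticOnNhd ℂ (G.tr z c a) (G.MT z T) ∧ MapsTo (G.tr z c a) (G.MT z T) (G.MT z T) := by
  have hev : ∀ᶠ τ in 𝓝 z.2.2, ((G.b z τ).2.2 = τ ∧ G.b z τ ∈ G.Z) ∧ G.nd (G.b z τ) ∧
      G.b (G.b z τ) =ᶠ[𝓝 τ] G.b z :=
    (h.bt z hz).and ((h.nd_near hz hn).1.and ((h.b_germ hz).mono fun _ h => h.1))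
  have hQ : ∀ m : Amb A B, (((G.b z m.2.2).2.2 = m.2.2 ∧ G.b z m.2.2 ∈ G.Z) ∧ G.nd (G.b z m.2.2) ∧
      G.b (G.b z m.2.2) =ᶠ[𝓝 m.2.2] G.b z) → ContinuousAt (fun m : Amb A B => G.Q (G.b z m.2.2) m.2.1) m := by
    rintro m ⟨⟨h1, h2⟩, h3, h4⟩
    have hc : ContinuousAt (fun m : Amb A B => m.2.2) m := by fun_prop
    refine (cob_Q_cont h h2 h3 (f := fun m : Amb A B => m.2.2) (g := fun m : Amb A B => m.2.1) hc
      (by fun_prop) h1.symm).congr ?_
    filter_upwards [hc.eventually h4] with m' hm'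
    rw [hm']
  refine ⟨_, hev, fun m hm => (hQ m hm).continuousWithinAt, fun T hT hTo hTc => ⟨?_, ?_, fun c a => ⟨?_, ?_⟩⟩⟩
  · rw [isOpen_iff_mem_nhds]
    rintro m ⟨hm1, hm2⟩
    have hc : ContinuousAt (fun m : Amb A B => m.2.2) m := by fun_prop
    have h2 : ContinuousAt (fun m : Amb A B => m.1.im) m := by fun_prop
    filter_upwards [hc.eventually (hTo.mem_nhds hm1), (hQ m (hT hm1)).eventually_lt h2 hm2] with m' h1 h2
    exact ⟨h1, h2⟩
  · have hP : IsPreconnected (({w : ℂ | 0 < w.im} ×ˢ ((univ : Set (A → ℂ)) ×ˢ T)) : Set (Amb A B)) :=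
      (convex_halfSpace_im_gt 0).isPreconnected.prod (isPreconnected_univ.prod hTc)
    have hF : ContinuousOn (fun m : Amb A B => ((m.1 + (G.Q (G.b z m.2.2) m.2.1 : ℂ) * I, m.2) : Amb A B))
        ({w : ℂ | 0 < w.im} ×ˢ ((univ : Set (A → ℂ)) ×ˢ T)) := by
      intro m hm
      have h1 := hQ m (hT hm.2.2)
      refine ContinuousAt.continuousWithinAt ?_
      exact (continuousAt_fst.add ((continuous_ofReal.continuousAt.comp h1).mul continuousAt_const)).prodMk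
        continuousAt_snd
    convert hP.image _ hF using 1
    ext m
    constructor
    · rintro ⟨h1, h2⟩
      refine ⟨(m.1 - (G.Q (G.b z m.2.2) m.2.1 : ℂ) * I, m.2), ⟨?_, trivial, h1⟩, ?_⟩
      · simpa [Geo.InM] using h2
      · simp
    · rintro ⟨m, ⟨h1, -, h2⟩, rfl⟩
      refine ⟨h2, ?_⟩
      simpa [Geo.InM] using h1
  · rintro m ⟨hm1, -⟩
    obtain ⟨⟨h1, h2⟩, h3, h4⟩ := hT hm1
    have hp : AnalyticAt ℂ (fun m : Amb A B => m.2.2) m := analyticAt_snd.comp analyticAt_snd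
    have hu : AnalyticAt ℂ (fun m : Amb A B => m.2.1) m := analyticAt_fst.comp analyticAt_snd
    have a1 : AnalyticAt ℂ (fun τ => G.be (G.b z τ) a) m.2.2 := by
      have := h.anbe _ h2 a
      rw [h1] at this
      exact this.congr (h4.mono fun τ hτ => by simp only [hτ])
    have a2 : AnalyticAt ℂ (fun τ => G.eta (G.b z τ) a a) m.2.2 := by
      have := h.aneta _ h2 a a
      rw [h1] at this
      exact this.congr (h4.mono fun τ hτ => by simp only [hτ])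
    have a3 : AnalyticAt ℂ (fun τ => G.xi (G.b z τ) a) m.2.2 := by
      have := h.anxi _ h2 a
      rw [h1] at this
      exact this.congr (h4.mono fun τ hτ => by simp only [hτ])
    have a4 : AnalyticAt ℂ (fun m : Amb A B => G.be (G.b z m.2.2) a m.2.1) m :=
      ((ContinuousLinearMap.id ℂ ((A → ℂ) →L[ℂ] ℂ)).analyticAt_bilinear _).comp₂
        (AnalyticAt.fun_comp (f := fun m : Amb A B => m.2.2) a1 hp) hu
    exact (((analyticAt_fst.add a4).add
      (AnalyticAt.fun_comp (f := fun m : Amb A B => m.2.2) a2 hp)).add analyticAt_const).prod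
      ((hu.add (AnalyticAt.fun_comp (f := fun m : Amb A B => m.2.2) a3 hp)).prod hp)
  · rintro m ⟨hm1, hm2⟩
    obtain ⟨⟨h1, h2⟩, h3, h4⟩ := hT hm1
    refine ⟨hm1, ?_⟩
    have := h.tr_inv h2 h3 c a
    have e : G.Q (G.b z m.2.2) m.2.1 < m.1.im := hm2
    show G.Q (G.b z m.2.2) (G.tr z c a m).2.1 < (G.tr z c a m).1.im
    linarith

/-- the Hermitian part of `Q` -/
theorem Geo.OK.herm (h : G.OK R) {z : Amb A B} (hz : z ∈ G.Z) (hn : G.nd z) {a a' : A → ℂ}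
    (he : G.xi z a' = I • G.xi z a) : G.Q z (G.xi z a) + G.Q z (G.xi z a') = -G.ka a a' := by
  have e1 := h.rel z hz a a'
  have e2 := h.rel z hz a' a'
  rw [he, map_smul, h.rel z hz] at e1 e2
  rw [h.skew] at e1 e2
  rw [h.symm z hz a' a, cob_skew h a a'] at e2
  have e3 : G.eta z a a + G.eta z a' a' = -I * G.ka a a' := by
    simp only [smul_eq_mul] at e1 e2
    push_cast at e1 e2
    linear_combination (-1 / 2) * e2 - (I / 2) * e1 + (G.eta z a a) * I_mul_I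
  have e4 := congrArg Complex.im e3
  rw [cob_Q_xi hn, cob_Q_xi hn]
  simpa using e4

theorem cob_clin {V W : Type} [NormedAddCommGroup V] [NormedSpace ℂ V] [NormedSpace ℝ V] [IsScalarTower ℝ ℂ V]
    [NormedAddCommGroup W] [NormedSpace ℂ W] [NormedSpace ℝ W] [IsScalarTower ℝ ℂ W] (f : V →L[ℝ] W) :
    ∃ g : V →L[ℂ] W, ∀ u, g u = f u - I • f (I • u) := by
  refine ⟨⟨⟨⟨fun u => f u - I • f (I • u), fun u v => ?_⟩, fun c u => ?_⟩, by fun_prop⟩, fun _ => rfl⟩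
  · simp only [smul_add, map_add]
    abel
  · have hV : ∀ (c : ℂ) (u : V), c • u = c.re • u + c.im • I • u := fun c u => by
      have hV' : ∀ (c : ℝ) (u : V), c • u = (c : ℂ) • u := fun c u => (algebraMap_smul ℂ c u).symm
      rw [hV', hV']
      conv_lhs => rw [← re_add_im c, add_smul, mul_smul]
    have hW : ∀ (c : ℝ) (u : W), c • u = (c : ℂ) • u := fun c u => (algebraMap_smul ℂ c u).symm
    have e1 : f (c • u) = (c.re : ℂ) • f u + (c.im : ℂ) • f (I • u) := by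
      rw [hV c u, map_add, map_smul, map_smul, hW, hW]
    have e2 : f (I • c • u) = (c.re : ℂ) • f (I • u) - (c.im : ℂ) • f u := by
      rw [smul_comm, hV c, map_add, f.map_smul, f.map_smul, smul_smul I I, I_mul_I, neg_one_smul, map_neg, hW, hW,
        smul_neg, sub_eq_add_neg]
    simp only [RingHom.id_apply]
    rw [e1, e2]
    conv_rhs => rw [← re_add_im c]
    match_scalars
    · ring
    · linear_combination (c.im : ℂ) * I_mul_I

theorem cob_Q_be (h : G.OK R) {z : Amb A B} (hz : z ∈ G.Z) (hn : G.nd z) (u : A → ℂ) :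
    G.Q z u = (G.be z ((G.xi z).inverse u) u).im / 2 := by
  have := h.rel z hz ((G.xi z).inverse u) ((G.xi z).inverse u)
  rw [ContinuousLinearMap.IsInvertible.self_apply_inverse hn] at this
  rw [this, Geo.Q]
  simp

theorem cob_pos (h : G.OK R) {z : Amb A B} (hz : z ∈ G.Z) (hn : G.nd z) (hp : G.Pos z) {u : A → ℂ} (hu : u ≠ 0) :
    0 < G.Q z u + G.Q z (I • u) := by
  obtain ⟨a, rfl⟩ := hn.surjective u
  obtain ⟨a', ha'⟩ := hn.surjective (I • G.xi z a)
  rw [← ha', h.herm hz hn ha']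
  exact neg_pos.2 (hp a a' ha' (by rintro rfl; simp at hu))

theorem cob_hom (G : Geo A B) (z : Amb A B) {c : ℝ}
    (hc : ∀ u ∈ sphere (0 : A → ℂ) 1, c ≤ G.Q z u + G.Q z (I • u)) (u : A → ℂ) :
    c * ‖u‖ ^ 2 ≤ G.Q z u + G.Q z (I • u) := by
  by_cases hu : u = 0
  · subst hu
    simp [Geo.Q]
  have hn : 0 < ‖u‖ := norm_pos_iff.2 hu
  have h1 := hc (‖u‖⁻¹ • u) (by simp [norm_smul, hn.ne'])
  rw [smul_comm I, G.Q_smul, G.Q_smul, ← mul_add, inv_pow, le_inv_mul_iff₀ (by positivity)] at h1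
  linarith

/-- `Q u = Im (Sq u u) + H u` with `Sq` complex bilinear and `H u = (Q u + Q (I u)) / 2`; `H` is a nondegenerate
Hermitian form: if it is semipositive it is positive -/
theorem Geo.OK.split (h : G.OK R) {z : Amb A B} (hz : z ∈ G.Z) (hn : G.nd z) :
    (∃ Sq : (A → ℂ) →L[ℂ] (A → ℂ) →L[ℂ] ℂ, ∀ u, G.Q z u = (Sq u u).im + (G.Q z u + G.Q z (I • u)) / 2) ∧
      ((∀ u, 0 ≤ G.Q z u + G.Q z (I • u)) → G.Pos z) ∧
      (G.Pos z → ∃ c > 0, ∀ u, c * ‖u‖ ^ 2 ≤ G.Q z u + G.Q z (I • u)) := by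
  refine ⟨?_, fun hp a a' he ha => ?_, fun hp => ?_⟩
  · obtain ⟨g, hg⟩ := cob_clin ((G.be z).comp (G.xi z).inverse)
    refine ⟨(1 / 4 : ℂ) • g, fun u => ?_⟩
    have e1 := cob_Q_be h hz hn u
    have e2 := cob_Q_be h hz hn (I • u)
    have e3 : ((1 / 4 : ℂ) • g) u u = (1 / 4 : ℂ) * (G.be z ((G.xi z).inverse u) u -
        G.be z ((G.xi z).inverse (I • u)) (I • u)) := by
      rw [smul_apply, smul_apply, hg, (G.be z ((G.xi z).inverse (I • u))).map_smul]
      rfl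
    rw [e3, e1, e2]
    simp
    ring
  · have h1 := h.herm hz hn he
    have h2 := hp (G.xi z a)
    rw [← he, h1] at h2
    refine lt_of_le_of_ne (by linarith) fun h0 => ha (h.ndeg a fun b => ?_)
    have key : ∀ b b', G.xi z b' = I • G.xi z b → (G.eta z a b).im + (G.eta z a' b').im = 0 := by
      intro b b' hb
      have hd : discrim ((G.eta z b b).im + (G.eta z b' b').im) (2 * ((G.eta z a b).im + (G.eta z a' b').im)) 0
          ≤ 0 := by
        refine discrim_le_zero fun t => ?_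
        have h3 := hp (G.xi z (a + t • b))
        have h4 : I • G.xi z (a + t • b) = G.xi z (a' + t • b') := by
          rw [map_add, map_add, map_smul, map_smul, he, hb, smul_add, smul_comm]
        rw [h4, cob_Q_xi hn, cob_Q_xi hn] at h3
        rw [cob_Q_xi hn, cob_Q_xi hn, h0] at h1
        simp only [map_add, map_smul, add_apply, smul_apply, h.symm z hz b a, h.symm z hz b' a', add_im,
          smul_im, smul_eq_mul] at h3
        nlinarith
      rw [discrim] at hd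
      nlinarith
    obtain ⟨b', hb'⟩ := hn.surjective (I • G.xi z b)
    have k1 := key b' (-b) (by rw [map_neg, hb', smul_smul, I_mul_I, neg_one_smul])
    have r1 := h.rel z hz a b'
    have r2 := h.rel z hz b a'
    rw [hb', map_smul, h.rel z hz] at r1
    rw [he, map_smul, h.rel z hz, h.symm z hz b a, h.symm z hz b a', cob_skew h a b] at r2
    have i1 := congrArg Complex.im r1
    have i2 := congrArg Complex.im r2
    simp at i1 i2 k1
    linarith
  · have hc : Continuous fun u => G.Q z u + G.Q z (I • u) := by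
      unfold Geo.Q
      fun_prop
    obtain ⟨c, hc0, hc1⟩ := (isCompact_sphere (0 : A → ℂ) 1).exists_forall_le' hc.continuousOn (a := 0)
      fun u hu => cob_pos h hz hn hp (by rintro rfl; simp at hu)
    exact ⟨c, hc0, cob_hom G z hc1⟩

theorem Geo.OK.pos_near (h : G.OK R) {z : Amb A B} (hz : z ∈ G.Z) (hn : G.nd z) (hp : G.Pos z) :
    ∀ᶠ τ in 𝓝 z.2.2, G.Pos (G.b z τ) := by
  have h1 : ∀ᶠ τ in 𝓝 z.2.2, ∀ u ∈ sphere (0 : A → ℂ) 1, 0 < G.Q (G.b z τ) u + G.Q (G.b z τ) (I • u) := by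
    refine (isCompact_sphere (0 : A → ℂ) 1).eventually_forall_of_forall_eventually fun u hu => ?_
    have hc : ContinuousAt (fun p : (B → ℂ) × (A → ℂ) => G.Q (G.b z p.1) p.2 + G.Q (G.b z p.1) (I • p.2))
        (z.2.2, u) :=
      (cob_Q_cont h hz hn continuousAt_fst continuousAt_snd rfl).add
        (cob_Q_cont h hz hn continuousAt_fst (continuousAt_snd.const_smul I) rfl)
    refine continuousAt_const.eventually_lt hc ?_
    simp only [h.bz z hz]
    exact cob_pos h hz hn hp (by rintro rfl; simp at hu)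
  filter_upwards [h1, h.bt z hz, (h.nd_near hz hn).1] with τ h1 h2 h3
  refine (h.split h2.2 h3).2.1 fun u => ?_
  simpa using cob_hom G (G.b z τ) (c := 0) (fun u hu => (h1 u hu).le) u

theorem Geo.OK.Q_unif (h : G.OK R) {z : Amb A B} (hz : z ∈ G.Z) (hn : G.nd z) {ε : ℝ} (hε : 0 < ε) :
    ∀ᶠ τ in 𝓝 z.2.2, ∀ u, |G.Q (G.b z τ) u - G.Q z u| ≤ ε * ‖u‖ ^ 2 := by
  obtain ⟨-, -, h2, h3⟩ := h.nd_near hz hn
  let M : (B → ℂ) → (A → ℂ) →L[ℝ] (A → ℂ) →L[ℝ] ℂ := fun τ =>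
    (((G.eta (G.b z τ)).comp (G.xi (G.b z τ)).inverse).flip).comp (G.xi (G.b z τ)).inverse
  have hM : ContinuousAt M z.2.2 :=
    ((ContinuousLinearMap.flipₗᵢ ℝ (A → ℂ) (A → ℂ) ℂ).continuous.continuousAt.comp (h3.clm_comp h2)).clm_comp h2
  have e : ∀ τ u, G.Q (G.b z τ) u = (M τ u u).im := fun _ _ => rfl
  have hM' := (tendsto_iff_norm_sub_tendsto_zero (E := (A → ℂ) →L[ℝ] (A → ℂ) →L[ℝ] ℂ) (f := M) (b := M z.2.2)).1 hM
  filter_upwards [hM'.eventually (gt_mem_nhds hε)] with τ hτ u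
  conv_lhs => rw [← h.bz z hz]
  rw [h.bz z hz, e, show G.Q z u = (M z.2.2 u u).im by rw [← e, h.bz z hz], ← sub_im]
  calc _ ≤ ‖(M τ - M z.2.2) u u‖ := by simpa using abs_im_le_norm ((M τ - M z.2.2) u u)
    _ ≤ ‖M τ - M z.2.2‖ * ‖u‖ * ‖u‖ := ContinuousLinearMap.le_opNorm₂ _ _ _
    _ ≤ ε * ‖u‖ ^ 2 := by rw [mul_assoc, ← sq]; gcongr

/-- The barrier `w' = w - Sq u u`: on `{r ≥ 0}` near `z` it lies in the sector and controls `u`.  The second part is
the same statement for the closed model. -/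
theorem Geo.OK.barrier (h : G.OK R) {z : Amb A B} (hz : z ∈ G.Z) (hn : G.nd z) (hp : G.Pos z) :
    ∃ (Sq : (A → ℂ) →L[ℂ] (A → ℂ) →L[ℂ] ℂ) (c : ℝ), 0 < c ∧
      (∀ᶠ q in 𝓝 z, 0 ≤ G.r z q → (G.co z q).1 - Sq (G.co z q).2.1 (G.co z q).2.1 ∈ Sect ∧
        c * ‖(G.co z q).2.1‖ ^ 2 ≤ ‖(G.co z q).1 - Sq (G.co z q).2.1 (G.co z q).2.1‖) ∧
      ∀ᶠ τ in 𝓝 z.2.2, ∀ (w : ℂ) (u : A → ℂ), G.Q (G.b z τ) u ≤ w.im → c * ‖u‖ ^ 2 ≤ (w - Sq u u).im := by
  obtain ⟨⟨Sq, hS⟩, -, h3⟩ := h.split hz hn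
  obtain ⟨c, hc, h4⟩ := h3 hp
  have hK : 0 < 2 + ‖Sq‖ := by positivity
  set ε := min (1 / 2) (c / (4 * (2 + ‖Sq‖))) with hε
  have hε0 : 0 < ε := by positivity
  have hε1 : ε ≤ 1 / 2 := min_le_left _ _
  have hε2 : ε * (2 + ‖Sq‖) ≤ c / 4 := by
    calc _ ≤ c / (4 * (2 + ‖Sq‖)) * (2 + ‖Sq‖) := by gcongr; exact min_le_right _ _
      _ = c / 4 := by field_simp
  refine ⟨Sq, c / 6, by positivity, ?_, ?_⟩
  · have ht : Tendsto (fun q : Amb A B => q.2.2) (𝓝 z) (𝓝 z.2.2) := (by fun_prop : Continuous _).tendsto _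
    filter_upwards [h.rexp z hz hn ε hε0, ht.eventually (h.Q_unif hz hn hε0)] with q a1 a2 a3
    generalize G.co z q = m at a1 ⊢
    obtain ⟨w, u, t⟩ := m
    simp only at a1 ⊢
    have b1 := (abs_le.1 a1).2
    have b2 := (abs_le.1 (a2 u)).1
    have b3 := hS u
    have b4 := h4 u
    have b5 : ‖Sq u u‖ ≤ ‖Sq‖ * ‖u‖ ^ 2 := by
      rw [sq, ← mul_assoc]; exact ContinuousLinearMap.le_opNorm₂ _ _ _
    have b6 : ‖w‖ ≤ ‖w - Sq u u‖ + ‖Sq u u‖ := by simpa using norm_add_le (w - Sq u u) (Sq u u)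
    have b7 : (w - Sq u u).im ≤ ‖w - Sq u u‖ := im_le_norm _
    have b8 : ε * ‖w‖ ≤ ε * (‖w - Sq u u‖ + ‖Sq‖ * ‖u‖ ^ 2) := by gcongr; linarith
    have b9 : ε * ‖w - Sq u u‖ ≤ 1 / 2 * ‖w - Sq u u‖ := by gcongr
    have b10 : ε * (2 + ‖Sq‖) * ‖u‖ ^ 2 ≤ c / 4 * ‖u‖ ^ 2 := by gcongr
    have b11 : 0 ≤ c * ‖u‖ ^ 2 := by positivity
    have b12 : c / 4 * ‖u‖ ^ 2 - ‖w - Sq u u‖ / 2 ≤ (w - Sq u u).im := by
      rw [sub_im]; nlinarith
    exact ⟨by simp only [Sect, mem_setOf_eq]; linarith, by linarith⟩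
  · filter_upwards [h.Q_unif hz hn (by positivity : 0 < c / 4)] with τ a2 w u a3
    have b2 := (abs_le.1 (a2 u)).1
    have b3 := hS u
    have b4 := h4 u
    have b11 : 0 ≤ c * ‖u‖ ^ 2 := by positivity
    rw [sub_im]; linarith

/-- compact pieces of the model are eventually scaled into `{r > 0}`, and conversely limits lie in the closed model -/
theorem Geo.OK.scale_in (h : G.OK R) {z : Amb A B} (hz : z ∈ G.Z) (hn : G.nd z) : ∀ᶠ τ in 𝓝 z.2.2,
    ∀ m : Amb A B, m.2.2 = τ →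
      (G.InM z m → ∀ᶠ p : ℝ × Amb A B in 𝓝[Ioi 0 ×ˢ univ] (0, m), 0 < G.r z (G.ico z (sc p.1 p.2))) ∧
      (m.1.im < G.Q (G.b z τ) m.2.1 → ∀ᶠ p : ℝ × Amb A B in 𝓝[Ioi 0 ×ˢ univ] (0, m), G.r z (G.ico z (sc p.1 p.2)) < 0) := by
  obtain ⟨T, hT, hTo, hB, hc⟩ := h.co_ico hz
  obtain ⟨T₀, hT₀, hQ, -⟩ := h.MT_open hz hn
  filter_upwards [hT, eventually_mem_nhds_iff.2 hT₀, h.b_germ hz, (h.nd_near hz hn).1, h.rgerm z hz hn]
    with τ a1 a2 a3 a4 a5 m hm
  obtain ⟨c1, c2, c3, c4⟩ := hc τ a1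
  have hO : IsOpen {m : Amb A B | m.2.2 ∈ T} := hTo.preimage (by fun_prop)
  have t0 : Tendsto (fun p : ℝ × Amb A B => sc p.1 p.2) (𝓝 (0, m)) (𝓝 (0, 0, τ)) := by
    have : Continuous fun p : ℝ × Amb A B => sc p.1 p.2 := by unfold sc; fun_prop
    have := this.tendsto (0, m)
    simpa [sc, hm] using this
  have t1 : Tendsto (fun p : ℝ × Amb A B => G.ico z (sc p.1 p.2)) (𝓝 (0, m)) (𝓝 (G.b z τ)) := by
    rw [← c2]
    exact ((hB.ag.continuousOn.continuousAt (hO.mem_nhds a1)).tendsto).comp t0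
  have t2 : Tendsto (fun p : ℝ × Amb A B => p.2.2.2) (𝓝 (0, m)) (𝓝 τ) := by
    rw [← hm]; exact (by fun_prop : Continuous _).tendsto _
  have t3 : ContinuousAt (fun p : ℝ × Amb A B => p.2.1.im - G.Q (G.b z p.2.2.2) p.2.2.1) (0, m) := by
    refine ContinuousAt.sub (by fun_prop) ?_
    refine ContinuousAt.comp (g := fun m : Amb A B => G.Q (G.b z m.2.2) m.2.1) (hQ.continuousAt ?_) continuousAt_snd
    exact (by fun_prop : Continuous fun m : Amb A B => m.2.2).continuousAt.preimage_mem_nhds (hm ▸ a2)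
  have t4 : ContinuousAt (fun p : ℝ × Amb A B => ‖p.2.1‖ + ‖p.2.2.1‖ ^ 2) (0, m) := by fun_prop
  set d := m.1.im - G.Q (G.b z m.2.2) m.2.1 with hd
  set K := ‖m.1‖ + ‖m.2.1‖ ^ 2 + 1 with hK
  have hK0 : 0 < K := by positivity
  have key : d ≠ 0 → ∀ᶠ p : ℝ × Amb A B in 𝓝 (0, m),
      |G.r z (G.ico z (sc p.1 p.2)) - p.1 ^ 2 * d| ≤ p.1 ^ 2 * (|d| / 2) := by
    intro hd0
    have hd1 : 0 < |d| := abs_pos.2 hd0
    filter_upwards [t1.eventually (h.rexp _ c4 a4 (|d| / 4 / K) (by positivity)), t1.eventually a5,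
      t1.eventually a3.2, t2.eventually a3.1, t2.eventually (hTo.mem_nhds a1),
      Metric.tendsto_nhds.1 t3 (|d| / 4) (by positivity), t4.eventually (gt_mem_nhds (lt_add_one _))]
      with p b1 b2 b3 b4 b5 b6 b7
    have e1 : G.co z (G.ico z (sc p.1 p.2)) = sc p.1 p.2 := hB.fg _ b5
    have e2 : (G.ico z (sc p.1 p.2)).2.2 = p.2.2.2 := rfl
    rw [← b2, b3, e1, e2, b4] at b1
    simp only [sc, G.Q_smul, im_ofReal_mul, norm_mul, norm_real, norm_smul, Real.norm_eq_abs, abs_pow, sq_abs,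
      mul_pow] at b1
    rw [Real.dist_eq] at b6
    have e3 : |d| / 4 / K * (p.1 ^ 2 * ‖p.2.1‖ + p.1 ^ 2 * ‖p.2.2.1‖ ^ 2) ≤ p.1 ^ 2 * (|d| / 4) := by
      calc _ = p.1 ^ 2 * (|d| / 4 / K * (‖p.2.1‖ + ‖p.2.2.1‖ ^ 2)) := by ring
        _ ≤ p.1 ^ 2 * (|d| / 4 / K * K) := by gcongr
        _ = _ := by field_simp
    have e4 : |p.1 ^ 2 * (p.2.1.im - G.Q (G.b z p.2.2.2) p.2.2.1 - d)| ≤ p.1 ^ 2 * (|d| / 4) := by
      rw [abs_mul, abs_pow, sq_abs]; gcongr
    have e5 := abs_le.1 (b1.trans e3)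
    have e6 := abs_le.1 e4
    simp only [sc]
    rw [abs_le]; constructor <;> nlinarith
  constructor
  · intro hI
    have hd0 : 0 < d := sub_pos.2 hI
    filter_upwards [nhdsWithin_le_nhds (key hd0.ne'), self_mem_nhdsWithin] with p b1 b2
    have b3 : 0 < p.1 ^ 2 * d := mul_pos (pow_pos b2.1 2) hd0
    rw [abs_of_pos hd0] at b1
    have := (abs_le.1 b1).1
    linarith
  · intro hI
    have hd0 : d < 0 := by rw [hd, hm]; exact sub_neg.2 hI
    filter_upwards [nhdsWithin_le_nhds (key hd0.ne), self_mem_nhdsWithin] with p b1 b2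
    have b3 : p.1 ^ 2 * d < 0 := mul_neg_of_pos_of_neg (pow_pos b2.1 2) hd0
    rw [abs_of_neg hd0] at b1
    have := (abs_le.1 b1).2
    linarith

/-- shrinking and moving data -/
theorem Geo.Datum.mono {z : Amb A B} {W W' N : Set (Amb A B)} {σ : Amb A B → E} (d : G.Datum X π z W N σ)
    (hW : IsOpen W') (hz : z ∈ W') (hs : W' ⊆ W) : G.Datum X π z W' N σ := by
  exact ⟨hW, hz, d.anr.mono hs, d.sm, fun x hx h => d.cl x (hs hx) (closure_mono (inter_subset_inter_right _ hs) h),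
    d.sec.mono (inter_subset_inter_left _ hs), fun x hx h1 h2 h3 h4 =>
      d.wall x hx (hs h1) h2 h3 (closure_mono (image_mono (inter_subset_inter_left _ hs)) h4)⟩

theorem Geo.Datum.move (h : G.OK R) {z : Amb A B} (hz : z ∈ G.Z) (hn : G.nd z) {W N : Set (Amb A B)}
    {σ : Amb A B → E} (d : G.Datum X π z W N σ) : ∀ᶠ τ in 𝓝 z.2.2, ∃ W' ⊆ W, G.Datum X π (G.b z τ) W' N σ ∧
      EqOn (G.r z) (G.r (G.b z τ)) W' := by
  have hb : ∀ᶠ τ in 𝓝 z.2.2, G.b z τ ∈ W :=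
    (h.anb z hz).continuousAt.preimage_mem_nhds (by rw [h.bz z hz]; exact d.oW.mem_nhds d.zW)
  filter_upwards [hb, h.rgerm z hz hn] with τ h1 h2
  obtain ⟨V, hV, hVo, hzV⟩ := _root_.mem_nhds_iff.1 h2
  have he : EqOn (G.r z) (G.r (G.b z τ)) (V ∩ W) := fun q hq => hV hq.1
  have hs : V ∩ W ∩ {q | 0 < G.r (G.b z τ) q} ⊆ W ∩ {q | 0 < G.r z q} := fun q hq =>
    ⟨hq.1.2, by rw [mem_ofPred_eq, he hq.1]; exact hq.2⟩
  refine ⟨V ∩ W, inter_subset_right, ⟨hVo.inter d.oW, ⟨hzV, h1⟩,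
    (d.anr.mono inter_subset_right).congr (hVo.inter d.oW) he, d.sm,
    fun x hx h => d.cl x hx.2 (closure_mono (inter_subset_inter_right _ inter_subset_right) h), d.sec.mono hs,
    fun x hx h1 h2 h3 h4 => d.wall x hx h1.2 ((he h1).trans h2) h3 (closure_mono (image_mono hs) h4)⟩, he⟩

/-- A connected open piece of `X` over `W` which meets the section lies in its closure: `N ∩ Reg \ π ⁻¹' S` is connected
(`Small.preconn`, `small_not_sub`, `Small.preimage`) and the section is open and closed in it. -/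
theorem Geo.Datum.trap (u : Up n X π) {z : Amb A B} {W N : Set (Amb A B)} {σ : Amb A B → E}
    (d : G.Datum X π z W N σ) {O : Set E} (hO : IsOpen O) (hc : IsPreconnected (X ∩ O)) (hW : ∀ y ∈ X ∩ O, π y ∈ W)
    {q : Amb A B} (hq : q ∈ W ∩ {q | 0 < G.r z q}) (hm : σ q ∈ O) :
    ∀ y ∈ X ∩ O, 0 ≤ G.r z (π y) ∧ (0 < G.r z (π y) → σ (π y) = y) := by
  have hX := u.cm.mfd
  have hXO := hX.inter hO
  have hRS := Reg_eq_Sub hX u.dim π
  have hWo : IsOpen (W ∩ {q | 0 < G.r z q}) :=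
    d.anr.continuousOn.isOpen_inter_preimage d.oW (t := Ioi 0) isOpen_Ioi
  set 𝒜 : Set E := {y | π y ∈ W ∩ {q | 0 < G.r z q} ∧ σ (π y) = y} with h𝒜
  have key : ∀ y ∈ X ∩ O, (∃ᶠ y' in 𝓝[X] y, y' ∈ 𝒜) →
      0 ≤ G.r z (π y) ∧ (0 < G.r z (π y) → σ (π y) = y) := by
    intro y hy hf
    have hπ : ContinuousWithinAt π X y := u.an.continuousOn y hy.1
    have hr : ContinuousWithinAt (fun y' => G.r z (π y')) X y :=
      (d.anr _ (hW y hy)).continuousAt.comp_continuousWithinAt hπ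
    refine ⟨ge_of_tendsto_of_frequently hr (hf.mono fun y' h => h.1.2.le), fun hp => ?_⟩
    have hσ : ContinuousWithinAt (fun y' => σ (π y')) X y :=
      (d.sec.1 _ ⟨hW y hy, hp⟩).continuousAt.comp_continuousWithinAt hπ
    exact tendsto_nhds_unique_of_frequently_eq hσ (continuousWithinAt_id (s := X) (x := y)) (hf.mono fun y' h => h.2)
  have hop : ∀ q' ∈ W ∩ {q | 0 < G.r z q}, ∀ᶠ y in 𝓝[X] (σ q'), y ∈ 𝒜 := fun q' hq' =>
    (d.sec.nhds hX u.dim u.an hWo hq').2.2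
  obtain ⟨sm1, cl1⟩ := small_not_sub hX u.cm.conn.isPreconnected u.an (hRS ▸ u.reg)
  set T : Set E := (Sub X π)ᶜ ∪ π ⁻¹' N with hT
  have smT : Small (X ∩ O) T := by
    refine ((sm1.union (d.sm.preimage hX u.an (mapsTo_univ _ _))).mono ?_).inter_open hO
    rintro x ⟨hx | hx, hxX⟩
    · exact Or.inl hx
    · by_cases hs : x ∈ Sub X π
      · exact Or.inr ⟨hxX, hx, fun c _ => hs.2 c⟩
      · exact Or.inl hs
  have clT : ClIn (X ∩ O) T := by
    intro x hx hcl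
    rw [hT, union_inter_distrib_right, closure_union] at hcl
    rcases hcl with hcl | hcl
    · exact Or.inl (cl1 x hx.1 (closure_mono (inter_subset_inter_right _ inter_subset_left) hcl))
    · refine Or.inr (d.cl _ (hW x hx) ?_)
      have hπ : ContinuousWithinAt π (π ⁻¹' N ∩ (X ∩ O)) x :=
        (u.an.continuousOn x hx.1).mono fun y hy => hy.2.1
      exact hπ.mem_closure hcl fun y hy => ⟨hy.1, hW y hy.2⟩
  have hY := smT.preconn hXO hc clT
  have hD := smT.dense hXO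
  have hle : ∀ y, 𝓝[(X ∩ O) \ T] y ≤ 𝓝[X] y := fun y => nhdsWithin_mono _ fun x hx => hx.1.1
  have hsub : (X ∩ O) \ T ⊆ 𝒜 := by
    refine clopen_ind hY ?_ (fun x _ hx => ?_) fun x hx hf => ?_
    · have : (𝓝[(X ∩ O) \ T] (σ q)).NeBot := mem_closure_iff_nhdsWithin_neBot.1 (hD ⟨(d.sec.2 q hq).1, hm⟩)
      obtain ⟨y, hy⟩ := (((hop q hq).filter_mono (hle _)).and self_mem_nhdsWithin).exists
      exact ⟨y, hy.2, hy.1⟩
    · have := hop _ hx.1
      rw [hx.2] at this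
      exact this.filter_mono (hle _)
    · have hf' := hf.filter_mono (hle _)
      obtain ⟨k1, k2⟩ := key x hx.1 hf'
      have hx2 : x ∈ Sub X π ∧ π x ∉ N := by simpa [hT] using hx.2
      have hp : 0 < G.r z (π x) := by
        refine lt_of_le_of_ne k1 fun h0 => d.wall x (hRS ▸ hx2.1) (hW x hx.1) h0.symm hx2.2 ?_
        exact mem_closure_iff_frequently.2
          ((hf'.filter_mono nhdsWithin_le_nhds).mono fun y hy => ⟨π y, hy.1, hy.2⟩)
      exact ⟨⟨hW x hx.1, hp⟩, k2 hp⟩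
  intro y hy
  have : (𝓝[(X ∩ O) \ T] y).NeBot := mem_closure_iff_nhdsWithin_neBot.1 (hD hy)
  refine key y hy (Frequently.filter_mono (Eventually.frequently ?_) (hle y))
  exact eventually_nhdsWithin_of_forall hsub

end Crest.Agent.R264
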