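import Crest.Agent.R264.Model.Lim
import Crest.Agent.R264.Dx.Mid

set_option autoImplicit false
set_option linter.unusedSectionVars false
open Set Filter Topology Metric Complex

namespace Crest.Agent.R264

variable {E : Type} [NormedAddCommGroup E] [NormedSpace ℂ E] [NormedSpace ℝ E] [IsScalarTower ℝ ℂ E]
  [FiniteDimensional ℂ E] {A B : Type} [Fintype A] [Fintype B] {G : Geo A B} {R : Amb A B → ℝ} {n : ℕ} {X : Set E}
  {π : E → Amb A B} {S : Sq E A B}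

theorem Geo.OK.dx_pt (h : G.OK R) {z : Amb A B} (hz : z ∈ G.Z) : Dx.Pt G.ka (G.xi z) (G.eta z) := by
  refine ⟨fun l l' e a => ?_, h.symm z hz⟩
  rw [← h.rel z hz, ← h.rel z hz, ← smul_eq_mul, ← map_smul, ← map_add, e, map_zero]

open Classical in
/-- the model coordinate -/
noncomputable def Sq.dxPhi (S : Sq E A B) (G : Geo A B) (X : Set E) (π : E → Amb A B) (y : E) : Amb A B :=
  if h : ∃ m, S.MOD G X π y m then h.choose else 0

theorem Sq.MOD.dxPhi_eq {y : E} {m : Amb A B} (h : S.MOD G X π y m) : S.dxPhi G X π y = m := by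
  have h' : ∃ m, S.MOD G X π y m := ⟨m, h⟩
  rw [Sq.dxPhi, dif_pos h']
  exact h'.choose_spec.unique h

theorem dx_chart (h : G.OK R) (u : Up n X π) (hS : S.OK G X π) {k : ℕ} {O : Set E} {V : Set ((B → ℂ) × (Fin k → ℂ))}
    (hV : IsOpen V) {Λ : E → Fin k → ℂ} {g : (B → ℂ) × (Fin k → ℂ) → E}
    (hb : Bih (X ∩ O) V (fun y => (S.tP y, Λ y)) g) {τ : B → ℂ} {x : Fin k → ℂ} (hp : (τ, x) ∈ V) {m : Amb A B}
    (hm : S.MOD G X π (g (τ, x)) m) : AnalyticAt ℂ (fun p => S.dxPhi G X π (g p)) (τ, x) ∧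
      ∀ e, fderiv ℂ (fun x => (S.dxPhi G X π (g (τ, x))).1) x e = 0 →
        fderiv ℂ (fun x => (S.dxPhi G X π (g (τ, x))).2.1) x e = 0 → e = 0 := by
  obtain ⟨-, -, Φ, aΦ, rΦ, eΦ⟩ := hm.loc h u hS
  have hVn : V ∈ 𝓝 (τ, x) := hV.mem_nhds hp
  have ag : AnalyticAt ℂ g (τ, x) := hb.ag.analyticAt hVn
  have hX : ∀ᶠ p in 𝓝 (τ, x), g p ∈ X := mem_of_superset hVn fun p hp => (hb.mg hp).1
  have tg : Tendsto g (𝓝 (τ, x)) (𝓝[X] (g (τ, x))) := tendsto_nhdsWithin_iff.2 ⟨ag.continuousAt, hX⟩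
  have e1 : (fun p => Φ (g p)) =ᶠ[𝓝 (τ, x)] fun p => S.dxPhi G X π (g p) :=
    (tg.eventually eΦ).mono fun p hp => hp.dxPhi_eq.symm
  have a1 : AnalyticAt ℂ (fun p => Φ (g p)) (τ, x) := anAt_comp_param ag hX aΦ
  have a2 := a1.congr e1
  refine ⟨a2, fun e h1 h2 => ?_⟩
  have d := Dx.fderiv_fib a2.differentiableAt
  rw [← e1.fderiv_eq] at d
  rw [d.fst.fderiv] at h1
  rw [d.snd.fst.fderiv] at h2
  have e3 : (fun x => (S.dxPhi G X π (g (τ, x))).2.2) =ᶠ[𝓝 x] fun _ => τ := by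
    have tx : Tendsto (fun x => (τ, x)) (𝓝 x) (𝓝 (τ, x)) := (Continuous.prodMk_right τ).continuousAt
    filter_upwards [tx.eventually (tg.eventually eΦ), tx.eventually hVn] with x' g1 g2
    rw [g1.dxPhi_eq, g1.t_eq hS]
    exact congrArg Prod.fst (hb.fg _ g2)
  have h3 := congrArg (· e) (d.snd.snd.unique ((hasFDerivAt_const τ x).congr_of_eventuallyEq e3))
  have h4 : fderiv ℂ (fun p => Φ (g p)) (τ, x) (0, e) = 0 := Prod.ext h1 (Prod.ext h2 h3)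
  obtain ⟨f1, -, f3⟩ := fderiv_comp_param ag.differentiableAt hX (aΦ.differentiableWithinAt.mono (subset_insert _ _)) (0, e)
  have h5 := rΦ.2 _ f1 (f3 ▸ h4)
  have h6 := (hb.symm.Dv_left (v := (0, e)) hp (by rw [Tan_of_mem_nhds hVn]; trivial)).2
  rw [Dv_of_mem_nhds hVn, h5, map_zero] at h6
  exact (congrArg Prod.snd h6).symm

/-- Exclusion of degenerate walls.  See `Blueprint.lean`, Model 4. -/
theorem dx (h : G.OK R) (u : Up n X π) (hS : S.OK G X π) {y : E} (hy : y ∈ Sub X S.tP) (hz : S.P y ∈ G.Z)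
    {r₁ : (B → ℂ) → ℝ} (hr : AnalyticAt ℝ r₁ (S.tP y)) (h0 : r₁ (S.tP y) = 0) (hd : fderiv ℝ r₁ (S.tP y) ≠ 0)
    (hdeg : ∀ᶠ τ in 𝓝 (S.tP y), r₁ τ = 0 → ¬ G.nd (G.b (S.P y) τ))
    (hm : ∀ᶠ y' in 𝓝[X] y, 0 < r₁ (S.tP y') → ∃ m, S.MOD G X π y' m) : False := by
  classical
  have aT : AnalyticOn ℂ S.tP X := fun x hx =>
    (((ContinuousLinearMap.snd ℂ (A → ℂ) (B → ℂ)).comp (ContinuousLinearMap.snd ℂ ℂ _)).analyticAt
      _).comp_analyticWithinAt (hS.anP x hx)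
  have hP : ∀ᶠ y' in 𝓝[X] y, G.b (S.P y) (S.tP y') = S.P y' := by
    filter_upwards [(hS.anP y hy.1).continuousWithinAt.eventually (h.bu _ hz), self_mem_nhdsWithin] with y' g1 g2
    exact g1 (hS.eqs y' g2)
  obtain ⟨U, hU, hUs⟩ := mem_nhdsWithin_iff_exists_mem_nhds_inter.1 (hm.and hP)
  obtain ⟨k, Λ, O, δ, g, hk, -, -, hOU, hδ, -, hb⟩ := Sub.chart u.cm.mfd aT hy hU
  have hk' : k = Fintype.card A + 1 := by
    have := u.dim
    rw [finrank_amb, ← hk, Module.finrank_pi] at this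
    omega
  have hV : IsOpen (ball (S.tP y) δ ×ˢ ball (0 : Fin k → ℂ) δ) := isOpen_ball.prod isOpen_ball
  refine Dx.mid (ξ := fun τ => G.xi (G.b (S.P y) τ)) (η := fun τ => G.eta (G.b (S.P y) τ))
    (w := fun p => (S.dxPhi G X π (g p)).1) (u := fun p => (S.dxPhi G X π (g p)).2.1) hk' hr h0 hd hδ h.skew h.ndeg
    ?_ hdeg ?_
  · filter_upwards [h.b_germ hz, h.bt _ hz] with τ g1 g2
    refine ⟨fun a => ?_, fun a a' => ?_, h.dx_pt g2.2⟩
    · have := h.anxi _ g2.2 a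
      rw [g2.1] at this
      exact this.congr (g1.1.mono fun τ' e => by simp only [e])
    · have := h.aneta _ g2.2 a a'
      rw [g2.1] at this
      exact this.congr (g1.1.mono fun τ' e => by simp only [e])
  · filter_upwards [ball_mem_nhds (S.tP y) hδ] with τ hτ hp
    have key : ∀ x ∈ ball (0 : Fin k → ℂ) δ, G.b (S.P y) τ = S.P (g (τ, x)) ∧ S.tP (g (τ, x)) = τ ∧
        S.MOD G X π (g (τ, x)) (S.dxPhi G X π (g (τ, x))) := fun x hx => by
      have g1 := hb.mg (mk_mem_prod hτ hx)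
      have g2 : S.tP (g (τ, x)) = τ := congrArg Prod.fst (hb.fg _ (mk_mem_prod hτ hx))
      have g3 := hUs ⟨hOU g1.2, g1.1⟩
      obtain ⟨m, hm⟩ := g3.1 (by rwa [g2])
      exact ⟨by rw [← g3.2, g2], g2, hm.dxPhi_eq ▸ hm⟩
    have k0 := key 0 (mem_ball_self hδ)
    have an := fun x hx => dx_chart h u hS hV hb (mk_mem_prod hτ hx) (key x hx).2.2
    refine ⟨?_, ?_, fun x hx => analyticAt_fst.comp (an x hx).1,
      fun x hx => analyticAt_fst.comp (analyticAt_snd.comp (an x hx).1), fun x hx => ?_, (an 0 (mem_ball_self hδ)).2⟩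
    · rw [k0.1]
      exact k0.2.2.2.2.1
    · rw [k0.1]
      exact (k0.2.2.loc h u hS).1
    · obtain ⟨g1, g2, g3⟩ := key x hx
      obtain ⟨W, N, σ, -, -, -, hin⟩ := g3.2.2.2
      have g4 := h.bz _ g3.2.1
      rw [Geo.InM, g3.t_eq hS] at hin
      rw [g1]
      exact g4 ▸ hin

end Crest.Agent.R264
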