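import Crest.Agent.R264.Model.Psc
import Crest.Agent.R264.Model.Lim.Pre

set_option autoImplicit false
set_option linter.unusedSectionVars false
open Set Filter Topology Metric Complex

namespace Crest.Agent.R264

variable {E : Type} [NormedAddCommGroup E] [NormedSpace ℂ E] [NormedSpace ℝ E] [IsScalarTower ℝ ℂ E]
  [FiniteDimensional ℂ E] {A B : Type} [Fintype A] [Fintype B] {G : Geo A B} {R : Amb A B → ℝ} {n : ℕ} {X : Set E}
  {π : E → Amb A B} {S : Sq E A B}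

/-- Propagation.  See `Blueprint.lean`, Model 2.  No `Sq.OK`-hypothesis on `Z` is used, only `pos`, `lim`, `bih`. -/
theorem Geo.Datum.prop (h : G.OK R) (u : Up n X π) {z : Amb A B} (hz : z ∈ G.Z) (hn : G.nd z)
    {W N : Set (Amb A B)} {σ : Amb A B → E} (d : G.Datum X π z W N σ) : ∃ W₀ ∈ 𝓝 z, W₀ ⊆ W ∧
    ∀ S : Sq E A B, (∀ j, 0 < S.lam j) → Tendsto S.lam S.U (𝓝 0) → (∀ j, Bih X X (S.g j) (S.g' j)) →
    ∀ O : Set E, IsOpen O → IsPreconnected (X ∩ O) → (∀ᶠ j in S.U, ∀ y ∈ X ∩ O, π (S.g j y) ∈ W₀) →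
    ∀ (y₀ : E) (y : ℕ → E) (m₀ : Amb A B), y₀ ∈ X ∩ O → Tendsto y S.U (𝓝[X] y₀) →
      (∀ᶠ j in S.U, 0 < G.r z (π (S.g j (y j))) ∧ σ (π (S.g j (y j))) = S.g j (y j)) →
      Tendsto (fun j => S.Ph G π z (y j) j) S.U (𝓝 m₀) →
      ∃ Φ : E → Amb A B, AnalyticOn ℂ Φ (X ∩ O) ∧ Φ y₀ = m₀ ∧
        TendstoLocallyUniformlyOn (fun j y => S.Ph G π z y j) Φ S.U (X ∩ O) ∧
        (∀ y ∈ X ∩ O, G.Q (G.b z (Φ y).2.2) (Φ y).2.1 ≤ (Φ y).1.im ∧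
          Tendsto (fun j => π (S.g j y)) S.U (𝓝 (G.b z (Φ y).2.2))) ∧
        (∀ y ∈ X ∩ O, G.InM z (Φ y) → S.Foll G π z W σ y (Φ y)) ∧
        ((∃ y ∈ X ∩ O, 𝓝 (Φ y) ≤ map Φ (𝓝[X] y)) → ∀ y ∈ X ∩ O, G.InM z (Φ y)) := by
  obtain ⟨Sq, c, hc, hb1, hb2⟩ := h.barrier hz hn (d.pos h u hz hn)
  obtain ⟨δ, hδ, hT⟩ := nhds_basis_closedBall.eventually_iff.1 ((h.good hz hn).and hb2)
  have hW₀ := (hb1.and ((continuous_snd.snd.tendsto z).eventually (closedBall_mem_nhds _ hδ))).and (d.oW.mem_nhds d.zW)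
  refine ⟨_, hW₀, fun q hq => hq.2, fun S hp h0 hbih O oO cO hev y₀ y m₀ hy₀ hy hfol hm₀ => ?_⟩
  have hN := u.cm.mfd.inter oO
  have hyN : Tendsto y S.U (𝓝[X ∩ O] y₀) := by rwa [← nhdsWithin_inter_of_mem' (nhdsWithin_le_nhds (oO.mem_nhds hy₀.2))] at hy
  have htrap : ∀ᶠ j in S.U, ∀ y ∈ X ∩ O, 0 ≤ G.r z (π (S.g j y)) ∧
      (0 < G.r z (π (S.g j y)) → σ (π (S.g j y)) = S.g j y) := by
    filter_upwards [hev, hfol, hyN.eventually self_mem_nhdsWithin] with j h1 h2 h3 y' hy'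
    obtain ⟨O', oO', e⟩ := (hbih j).image_inter oO
    refine d.trap u oO' (e ▸ cO.image _ ((hbih j).af.continuousOn.mono inter_subset_left)) (fun x hx => ?_)
      ⟨(h1 _ h3).2, h2.1⟩ ?_ _ (e ▸ mem_image_of_mem _ hy')
    · obtain ⟨x', hx', rfl⟩ := e.le hx
      exact (h1 x' hx').2
    · rw [h2.2]; exact (e.ge (mem_image_of_mem _ h3)).2
  have han : ∀ᶠ j in S.U, AnalyticOn ℂ (fun y => S.Ph G π z y j) (X ∩ O) := hev.mono fun j h1 y hy =>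
    (sc_an _ _).comp_analyticWithinAt (((hT (h1 y hy).1.2).1.self_of_nhds.co _ rfl).1.comp_analyticWithinAt
      (f := π ∘ S.g j) ((u.an.comp (hbih j).af (hbih j).mf).mono inter_subset_left y hy))
  let w : Amb A B → ℂ := fun m => m.1 - Sq m.2.1 m.2.1
  have hw : ∀ᶠ j in S.U, ∀ y ∈ X ∩ O, w (S.Ph G π z y j) ∈ Sect ∧
      c * ‖(S.Ph G π z y j).2.1‖ ^ 2 ≤ ‖w (S.Ph G π z y j)‖ := by
    filter_upwards [hev, htrap] with j h1 h2 y hy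
    obtain ⟨k1, k2⟩ := (h1 y hy).1.1 (h2 y hy).1
    have k0 := sq_nonneg (S.lam j)⁻¹
    simp only [w, R264.Sq.Ph, w_sc, Sect, mem_ofPred_eq, norm_mul, norm_real, Real.norm_of_nonneg k0, im_ofReal_mul] at k1 ⊢
    refine ⟨by nlinarith [mul_le_mul_of_nonneg_left k1 k0], ?_⟩
    simp only [sc, norm_smul, mul_pow, Real.norm_eq_abs, sq_abs]
    nlinarith [mul_le_mul_of_nonneg_left k2 k0]
  have hbd := sect_harnack hN cO (f := fun j y => w (S.Ph G π z y j)) ((han.and hw).mono fun j hj =>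
    ⟨fun y hy => (w_an Sq _).comp_analyticWithinAt (hj.1 y hy), fun y hy => (hj.2 y hy).1⟩) hy₀ hyN
    (((w_an Sq m₀).continuousAt.tendsto.comp hm₀).norm.eventually (eventually_le_nhds (lt_add_one _)))
  obtain ⟨Φ, aΦ, cΦ⟩ := montel hN S.U (f := fun j y => S.Ph G π z y j) fun x hx => by
    obtain ⟨O', hO', C, hC⟩ := hbd x hx
    refine ⟨O', hO', (C + ‖Sq‖ * (C / c)) + (1 + C / c) + (‖z.2.2‖ + δ), ?_⟩
    filter_upwards [hC, han, hw, hev] with j h1 h2 h3 h4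
    refine ⟨h2.mono inter_subset_left, fun y hy => ?_⟩
    have k1 := h1 y hy
    have k2 : ‖(S.Ph G π z y j).2.1‖ ^ 2 ≤ C / c := by
      rw [le_div_iff₀' hc]; exact (h3 y hy.1).2.trans k1
    have k3 : ‖(S.Ph G π z y j).2.2‖ ≤ ‖z.2.2‖ + δ := norm_le_of_mem_closedBall (h4 y hy.1).1.2
    have k4 : ‖(S.Ph G π z y j).1‖ ≤ C + ‖Sq‖ * (C / c) :=
      (norm_le_norm_sub_add _ (Sq (S.Ph G π z y j).2.1 (S.Ph G π z y j).2.1)).trans (add_le_add k1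
        ((Sq.le_opNorm₂ _ _).trans (by rw [mul_assoc, ← sq]; exact mul_le_mul_of_nonneg_left k2 Sq.opNorm_nonneg)))
    have k5 : ‖(S.Ph G π z y j).2.1‖ ≤ 1 + C / c := by nlinarith [sq_nonneg (‖(S.Ph G π z y j).2.1‖ - 1)]
    have := norm_nonneg (S.Ph G π z y j).1
    have := norm_nonneg (S.Ph G π z y j).2.1
    have := norm_nonneg (S.Ph G π z y j).2.2
    rw [Prod.norm_def, Prod.norm_def]
    exact max_le (by linarith) (max_le (by linarith) (by linarith))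
  have hτ : ∀ y ∈ X ∩ O, (Φ y).2.2 ∈ closedBall z.2.2 δ := fun y hy => isClosed_closedBall.mem_of_tendsto
    ((continuous_snd.snd.tendsto _).comp (cΦ.tendsto_at hy)) (hev.mono fun j hj => (hj y hy).1.2)
  have key := fun y (hy : y ∈ X ∩ O) => Geo.lim_b (hT (hτ y hy)).1 hp h0 (cΦ.tendsto_at hy)
  have hcl : ∀ y ∈ X ∩ O, G.Q (G.b z (Φ y).2.2) (Φ y).2.1 ≤ (Φ y).1.im := fun y hy =>
    (key y hy).2.2.2 (htrap.mono fun j hj => (hj y hy).1)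
  refine ⟨Φ, aΦ, tendsto_nhds_unique (tendsto_moving cΦ hy₀ (aΦ.continuousOn _ hy₀) hyN) hm₀, cΦ,
    fun y hy => ⟨hcl y hy, (key y hy).2.1⟩, fun y hy hm => ⟨?_, cΦ.tendsto_at hy, hm⟩, fun ⟨y₁, hy₁, hop⟩ y hy => ?_⟩
  · filter_upwards [(key y hy).2.2.1 hm, hev, htrap] with j h1 h2 h3
    exact ⟨⟨(h2 y hy).2, h1⟩, (h3 y hy).2 h1⟩
  refine (hcl y hy).lt_of_ne fun heq => ?_
  have g := fun y hy => (hT (hτ y hy)).1.self_of_nhds
  obtain ⟨a, ha⟩ : ∃ a, G.xi (G.b z (Φ y).2.2) a = -(Φ y).2.1 := (g y hy).nd.bijective.2 _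
  let c₀ := -(G.tr z 0 a (Φ y)).1.re
  have e1 : (G.tr z c₀ a (Φ y)).2.1 = 0 := by simp [Geo.tr, ha]
  have e2 : (G.tr z c₀ a (Φ y)).1 = 0 := by
    have := h.tr_inv (g y hy).Z (g y hy).nd c₀ a
    rw [e1, heq, sub_self] at this
    exact Complex.ext (by simp [Geo.tr, c₀]) (by simpa [Geo.Q] using this)
  have ak : AnalyticOn ℂ (fun y => w (G.tr z c₀ a (Φ y))) (X ∩ O) := fun y hy =>
    ((w_an Sq _).comp ((g y hy).tr_an h c₀ a)).comp_analyticWithinAt (aΦ y hy)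
  have z0 := ident hN cO ak analyticOn_const hy (sect_zero hN hy (ak y hy) (eventually_mem_nhdsWithin.mono
    fun y hy => le_trans (neg_nonpos.2 (by positivity)) (le_trans (by positivity) ((hT (hτ y hy)).2 _ _ (by
      have := h.tr_inv (g y hy).Z (g y hy).nd c₀ a
      linarith [hcl y hy])))) (by simp [w, e1, e2]))
  have k3 : ∀ᶠ m in 𝓝 (Φ y₁), w (G.tr z c₀ a m) = 0 :=
    hop (mem_map.2 (mem_of_superset (inter_mem_nhdsWithin X (oO.mem_nhds hy₁.2)) z0))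
  have t : Tendsto (fun s : ℂ => Φ y₁ + (s, 0, 0)) (𝓝[≠] 0) (𝓝 (Φ y₁)) :=
    (Continuous.tendsto' (by fun_prop) _ _ (by simp)).mono_left nhdsWithin_le_nhds
  obtain ⟨s, hs, hs0⟩ := ((t.eventually k3).and self_mem_nhdsWithin).exists
  have e : w (G.tr z c₀ a (Φ y₁ + (s, 0, 0))) = w (G.tr z c₀ a (Φ y₁)) + s := by
    simp only [w, Geo.tr, Prod.fst_add, Prod.snd_add, add_zero]; ring
  rw [e, k3.self_of_nhds, zero_add] at hs
  exact hs0 hs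

/-- The limit model.  See `Blueprint.lean`, Model 3. -/
theorem Geo.Datum.lm (h : G.OK R) (u : Up n X π) (hS : S.OK G X π) {z : Amb A B} (hz : z ∈ G.Z) (hn : G.nd z)
    {W N : Set (Amb A B)} {σ : Amb A B → E} (d : G.Datum X π z W N σ) : ∃ T₀ ∈ 𝓝 z.2.2,
    ∀ T ⊆ T₀, IsOpen T → IsPreconnected T → ∀ y₀ ∈ X, ∀ m₀ : Amb A B, m₀.2.2 ∈ T → S.Foll G π z W σ y₀ m₀ →
      ∃ (ψ : Amb A B → E) (Φ : E → Amb A B) (O : Set E), IsOpen O ∧ Bih (G.MT z T) (X ∩ O) ψ Φ ∧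
        (∀ m ∈ G.MT z T, S.P (ψ m) = G.b z m.2.2 ∧ S.Foll G π z W σ (ψ m) m ∧ S.MOD G X π (ψ m) m) ∧
        ∀ y ∈ X, ∀ m : Amb A B, m.2.2 ∈ T → S.Foll G π z W σ y m → ψ m = y := by
  obtain ⟨W₀, hW₀, hW₀W, hprop⟩ := d.prop h u hz hn
  obtain ⟨T₁, hT₁, -, hMT⟩ := h.MT_open hz hn
  have tb : Tendsto (G.b z) (𝓝 z.2.2) (𝓝 z) := by simpa only [h.bz z hz] using (h.anb z hz).continuousAt.tendsto
  refine ⟨_, ((h.good hz hn).and (d.mod h hS hz hn)).and ((tb.eventually (eventually_mem_nhds_iff.2 hW₀)).and hT₁),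
    fun T hT oT cT y₀ hy₀ m₀ hm₀ f₀ => ?_⟩
  obtain ⟨oM, cM, -⟩ := hMT T (fun τ hτ => (hT hτ).2.2) oT cT
  have mM : Mfd n (G.MT z T) := u.dim ▸ Mfd.of_isOpen oM
  have oV : IsOpen (W ∩ {q | 0 < G.r z q}) := d.anr.continuousOn.isOpen_inter_preimage d.oW isOpen_Ioi
  let q : ℕ → Amb A B → Amb A B := fun j m => G.ico z (sc (S.lam j) m)
  have hin : ∀ m ∈ G.MT z T, ∃ O ∈ 𝓝 m, ∀ᶠ j in S.U, ∀ m' ∈ O, q j m' ∈ W ∩ {q | 0 < G.r z q} := fun m hm => by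
    have g := (hT hm.1).1.1.self_of_nhds
    have := ((g.scale m rfl).1 hm.2).and ((g.tendsto_ico.eventually (mem_of_superset (hT hm.1).2.1 hW₀W)).filter_mono
      nhdsWithin_le_nhds)
    rw [nhdsWithin_prod_eq, nhdsWithin_univ, eventually_prod_iff] at this
    obtain ⟨pa, ha, pb, hb, H⟩ := this
    exact ⟨_, hb, ((tendsto_nhdsWithin_iff.2 ⟨hS.lim, Eventually.of_forall hS.pos⟩).eventually ha).mono
      fun j hj m' hm' => (H hj hm').symm⟩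
  have hloc : ∀ m ∈ G.MT z T, ∃ O ∈ 𝓝 m, ∀ᶠ j in S.U, AnalyticOn ℂ (fun m => S.g' j (σ (q j m))) (G.MT z T ∩ O) ∧
      MapsTo (fun m => S.g' j (σ (q j m))) (G.MT z T ∩ O) X := fun m hm => by
    obtain ⟨O, hO, H⟩ := hin m hm
    refine ⟨O, hO, H.mono fun j hj => ⟨fun m' hm' => ?_, fun m' hm' => (hS.bih j).mg (d.sec.2 _ (hj m' hm'.2)).1⟩⟩
    have aq : AnalyticAt ℂ (q j) m' := ((hT hm'.1.1).1.1.self_of_nhds.co (sc (S.lam j) m') rfl).2.1.comp (sc_an _ _)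
    exact (anAt_comp_param ((d.sec.1 _ (hj m' hm'.2)).comp aq) ((aq.continuousAt.eventually
      (oV.mem_nhds (hj m' hm'.2))).mono fun x hx => (d.sec.2 _ hx).1)
      ((hS.bih j).ag _ (d.sec.2 _ (hj m' hm'.2)).1)).analyticWithinAt
  obtain ⟨C, hC⟩ := u.cm.bdd.exists_norm_le
  obtain ⟨ψ, aψ, cψ⟩ := montel mM S.U (f := fun j m => S.g' j (σ (q j m))) fun m hm => by
    obtain ⟨O, hO, H⟩ := hloc m hm
    exact ⟨O, hO, C, H.mono fun j hj => ⟨hj.1, fun m' hm' => hC _ (hj.2 hm')⟩⟩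
  have last : ∀ y ∈ X, ∀ m : Amb A B, m.2.2 ∈ T → S.Foll G π z W σ y m → ψ m = y := fun y hy m hm f => by
    have hm' : m ∈ G.MT z T := ⟨hm, f.2.2⟩
    refine tendsto_nhds_unique (tendsto_moving cψ hm' (aψ.continuousOn m hm') (tendsto_nhdsWithin_iff.2
      ⟨f.2.1, f.2.1.eventually (oM.mem_nhds hm')⟩)) (tendsto_const_nhds.congr' ?_)
    filter_upwards [(Geo.lim_b (hT hm).1.1 hS.pos hS.lim f.2.1).1, f.1] with j h1 h2
    exact ((congrArg (fun x => S.g' j (σ x)) h1).trans ((congrArg _ h2.2).trans ((hS.bih j).gf y hy))).symm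
  have mψ : MapsTo ψ (G.MT z T) X := taut u.cm mM cM hloc (fun m hm => cψ.tendsto_at hm) ⟨hm₀, f₀.2.2⟩
    ((last y₀ hy₀ m₀ hm₀ f₀).symm ▸ hy₀)
  let Φ : E → Amb A B := fun y => limUnder S.U (S.Ph G π z y)
  have main : ∀ m ∈ G.MT z T, S.Foll G π z W σ (ψ m) m ∧ AnalyticWithinAt ℂ Φ X (ψ m) ∧
      ∀ᶠ y in 𝓝[X] (ψ m), y ∈ ψ '' G.MT z T := fun m hm => by
    have g := (hT hm.1).1.1.self_of_nhds
    obtain ⟨O₁, hO₁, H⟩ := hin m hm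
    have H1 : ∀ᶠ j in S.U, q j m ∈ W ∩ {q | 0 < G.r z q} ∧ S.g j (S.g' j (σ (q j m))) = σ (q j m) :=
      H.mono fun j hj => ⟨hj m (mem_of_mem_nhds hO₁), (hS.bih j).fg _ (d.sec.2 _ (hj m (mem_of_mem_nhds hO₁))).1⟩
    have ty : Tendsto (fun j => S.g' j (σ (q j m))) S.U (𝓝[X] (ψ m)) := tendsto_nhdsWithin_iff.2
      ⟨cψ.tendsto_at hm, H1.mono fun j hj => (hS.bih j).mg (d.sec.2 _ hj.1).1⟩
    have eP : S.P (ψ m) = G.b z m.2.2 := tendsto_nhds_unique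
      (tendsto_moving hS.conv (mψ hm) (hS.anP.continuousOn _ (mψ hm)) ty)
      ((g.tendsto_ico.comp (hS.lim.prodMk_nhds tendsto_const_nhds)).congr' (H1.mono fun j hj => by
        simp only [hj.2, (d.sec.2 _ hj.1).2]; rfl))
    obtain ⟨O, oO, xO, cO, hO⟩ := exists_piece u.cm.mfd hS.conv (mψ hm) (hS.anP.continuousOn _ (mψ hm))
      (eP ▸ (hT hm.1).2.1)
    obtain ⟨Φ₁, aΦ, eΦ, cΦ, -, fΦ, -⟩ := hprop S hS.pos hS.lim hS.bih O oO cO hO (ψ m) _ m ⟨mψ hm, xO⟩ ty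
      (H1.mono fun j hj => by rw [hj.2, (d.sec.2 _ hj.1).2]; exact ⟨hj.1.2, rfl⟩)
      (tendsto_const_nhds.congr' (H1.mono fun j hj => by
        simp only [Sq.Ph, hj.2, (d.sec.2 _ hj.1).2]
        rw [(g.co (sc (S.lam j) m) rfl).2.2.2, sc_inv_sc (hS.pos j).ne']))
    have nO : X ∩ O ∈ 𝓝[X] (ψ m) := inter_mem_nhdsWithin _ (oO.mem_nhds xO)
    have aΦ' := (aΦ _ ⟨mψ hm, xO⟩).mono_of_mem_nhdsWithin nO
    refine ⟨by simpa only [eΦ] using fΦ _ ⟨mψ hm, xO⟩ (eΦ.symm ▸ hm.2), aΦ'.congr_of_eventuallyEq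
      (mem_of_superset nO fun y hy => (cΦ.tendsto_at hy).limUnder_eq) (cΦ.tendsto_at ⟨mψ hm, xO⟩).limUnder_eq, ?_⟩
    filter_upwards [nO, aΦ'.continuousWithinAt.tendsto.eventually (oM.mem_nhds (eΦ.symm ▸ hm))] with y h1 h2
    exact ⟨_, h2, last y h1.1 _ h2.1 (fΦ y h1 h2.2)⟩
  have eΦ : ∀ m ∈ G.MT z T, Φ (ψ m) = m := fun m hm => (main m hm).1.2.1.limUnder_eq
  have eO : X ∩ interior (Xᶜ ∪ ψ '' G.MT z T) = ψ '' G.MT z T := by
    refine Subset.antisymm (fun y hy => (interior_subset hy.2).resolve_left (not_not.2 hy.1)) ?_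
    rintro _ ⟨m, hm, rfl⟩
    exact ⟨mψ hm, mem_interior_iff_mem_nhds.2 ((eventually_nhdsWithin_iff.1 (main m hm).2.2).mono
      fun y hy => imp_iff_not_or.1 hy)⟩
  have bih : Bih (G.MT z T) (ψ '' G.MT z T) ψ Φ := ⟨aψ, ?_, mapsTo_image _ _, ?_, eΦ, ?_⟩
  refine ⟨ψ, Φ, _, isOpen_interior, eO.symm ▸ bih, fun m hm => ?_, last⟩
  · have := (hT hm.1).1.2 _ (mψ hm) m rfl (main m hm).1
    exact ⟨this.1, (main m hm).1, this.2⟩
  · rintro _ ⟨m, hm, rfl⟩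
    exact (main m hm).2.1.mono mψ.image_subset
  · rintro _ ⟨m, hm, rfl⟩
    rwa [eΦ m hm]
  · rintro _ ⟨m, hm, rfl⟩
    rw [eΦ m hm]

/-- closedness of following -/
theorem Geo.Datum.clo (h : G.OK R) (u : Up n X π) (hS : S.OK G X π) {z : Amb A B} (hz : z ∈ G.Z) (hn : G.nd z)
    {W N : Set (Amb A B)} {σ : Amb A B → E} (d : G.Datum X π z W N σ) : ∀ᶠ τ in 𝓝 z.2.2, ∀ y ∈ X,
    S.P y = G.b z τ → (∃ᶠ y' in 𝓝[X] y, ∃ m, S.Foll G π z W σ y' m) → ∃ m, m.2.2 = τ ∧ S.Foll G π z W σ y m := by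
  obtain ⟨W₀, hW₀, -, hprop⟩ := d.prop h u hz hn
  obtain ⟨T₀, hT₀, hlm⟩ := d.lm h u hS hz hn
  obtain ⟨T₁, hT₁, -, hMT⟩ := h.MT_open hz hn
  obtain ⟨δ', hδ', hT'⟩ := Metric.mem_nhds_iff.1 (inter_mem hT₀ hT₁)
  have tb : Tendsto (G.b z) (𝓝 z.2.2) (𝓝 z) := by simpa only [h.bz z hz] using (h.anb z hz).continuousAt.tendsto
  filter_upwards [tb.eventually (eventually_mem_nhds_iff.2 hW₀), ball_mem_nhds _ hδ', h.bt z hz] with τ h1 h2 h3 y hy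
    eP hf
  have cP := hS.anP.continuousOn y hy
  have et : S.tP y = τ := (congrArg (·.2.2) eP).trans h3.1
  obtain ⟨O, oO, xO, cO, hO⟩ := exists_piece u.cm.mfd hS.conv hy cP (eP ▸ h1)
  obtain ⟨y', ⟨m', f⟩, hy', k⟩ := (hf.and_eventually (Eventually.and (inter_mem_nhdsWithin _ (oO.mem_nhds xO))
    (((continuous_snd.snd.tendsto _).comp cP).eventually (isOpen_ball.mem_nhds (et ▸ h2))))).exists
  have hm' : m'.2.2 ∈ ball z.2.2 δ' := hS.t_eq hy'.1 f.2.1 ▸ k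
  obtain ⟨ψ, Φ, O', oO', bih, H, last⟩ := hlm _ (fun τ hτ => (hT' hτ).1) isOpen_ball (convex_ball _ _).isPreconnected
    y' hy'.1 m' hm' f
  obtain ⟨Φ₁, -, eΦ, cΦ, -, fΦ, op⟩ := hprop S hS.pos hS.lim hS.bih O oO cO hO y' (fun _ => y') m' hy'
    (tendsto_const_nhdsWithin hy'.1) (f.1.mono fun j hj => ⟨hj.1.2, hj.2⟩) f.2.1
  have nM := (hMT _ (fun τ hτ => (hT' hτ).2) isOpen_ball (convex_ball _ _).isPreconnected).1.mem_nhds ⟨hm', f.2.2⟩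
  have t : Tendsto ψ (𝓝 m') (𝓝[X] y') := tendsto_nhdsWithin_iff.2 ⟨last y' hy'.1 m' hm' f ▸
    (bih.af.analyticAt nM).continuousAt.tendsto, mem_of_superset nM fun m hm => (bih.mf hm).1⟩
  have hin := op ⟨y', hy', eΦ.symm ▸ le_trans (le_of_eq (map_id.symm.trans (Filter.map_congr ?_))) (map_mono (m := Φ₁) t)⟩ y
    ⟨hy, xO⟩
  · exact ⟨_, (hS.t_eq hy (cΦ.tendsto_at ⟨hy, xO⟩)).trans et, fΦ y ⟨hy, xO⟩ hin⟩
  · filter_upwards [nM, t (inter_mem_nhdsWithin _ (oO.mem_nhds hy'.2))] with m k1 k2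
    exact tendsto_nhds_unique (H m k1).2.1.2.1 (cΦ.tendsto_at k2)

theorem Sq.MOD.unique {y : E} {m m' : Amb A B} (h : S.MOD G X π y m) (h' : S.MOD G X π y m') : m = m' := by
  obtain ⟨-, -, -, _, _, _, -, f⟩ := h
  obtain ⟨-, -, -, _, _, _, -, f'⟩ := h'
  exact tendsto_nhds_unique f.2.1 f'.2.1

theorem Sq.MOD.t_eq (hS : S.OK G X π) {y : E} {m : Amb A B} (h : S.MOD G X π y m) : m.2.2 = S.tP y := by
  obtain ⟨hy, -, -, _, _, _, -, f⟩ := h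
  exact hS.t_eq hy f.2.1

/-- local description near a model point -/
theorem Sq.MOD.loc (h : G.OK R) (u : Up n X π) (hS : S.OK G X π) {y : E} {m : Amb A B} (hy : S.MOD G X π y m) :
    G.Pos (S.P y) ∧ y ∈ Sub X S.tP ∧ ∃ Φ : E → Amb A B, AnalyticWithinAt ℂ Φ X y ∧ y ∈ Reg X Φ ∧
      ∀ᶠ y' in 𝓝[X] y, S.MOD G X π y' (Φ y') := by
  have et := hy.t_eq hS
  obtain ⟨hy, hz, hn, W, N, σ, d, f⟩ := hy
  obtain ⟨T₀, hT₀, hlm⟩ := d.lm h u hS hz hn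
  obtain ⟨T₁, hT₁, -, hMT⟩ := h.MT_open hz hn
  obtain ⟨δ, hδ, hT⟩ := Metric.mem_nhds_iff.1 (inter_mem hT₀ hT₁)
  have hm : m.2.2 ∈ ball (S.P y).2.2 δ := et ▸ mem_ball_self hδ
  obtain ⟨ψ, Φ, O, oO, bih, H, last⟩ := hlm _ (fun τ hτ => (hT hτ).1) isOpen_ball (convex_ball _ _).isPreconnected
    y hy m hm f
  have nM := (hMT _ (fun τ hτ => (hT hτ).2) isOpen_ball (convex_ball _ _).isPreconnected).1.mem_nhds ⟨hm, f.2.2⟩
  have e := last y hy m hm f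
  have hyO : y ∈ X ∩ O := e ▸ bih.mf (mem_of_mem_nhds nM)
  have nO := oO.mem_nhds hyO.2
  have aΦ := (bih.ag y hyO).mono_of_mem_nhdsWithin (inter_mem_nhdsWithin X nO)
  have hmod : ∀ᶠ y' in 𝓝[X] y, S.MOD G X π y' (Φ y') := mem_of_superset (inter_mem_nhdsWithin X nO) fun y' hy' => by
    simpa only [bih.fg y' hy', mem_ofPred_eq] using (H _ (bih.mg hy')).2.2
  refine ⟨d.pos h u hz hn, ⟨hy, fun c => ?_⟩, Φ, aΦ, ⟨hy, fun v hv h0 => ?_⟩, hmod⟩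
  · have k := bih.Dv_left (mem_of_mem_nhds nM) (v := (0, 0, c)) (by rw [Tan_of_mem_nhds nM]; trivial)
    rw [e, Tan_inter nO, Dv_inter nO] at k
    refine ⟨_, k.1, ?_⟩
    rw [← Dv_congr hy (hmod.mono fun y' hy' => hy'.t_eq hS)]
    exact (Dv_clm ((ContinuousLinearMap.snd ℂ _ _).comp (ContinuousLinearMap.snd ℂ _ _))
      (aΦ.differentiableWithinAt.mono (subset_insert _ _)) k.1).trans (congrArg (·.2.2) k.2)
  · have k := (bih.symm.Dv_left hyO (v := v) (by rwa [Tan_inter nO])).2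
    rwa [Dv_inter nO, h0, map_zero, eq_comm] at k

/-- The initial sequence.  `x j = σ (ico p (I λ_j², 0, t p))`, `g' j (x j) ∈ K`, `y₀ = lim_U g' j (x j)`,
`P = lim π ∘ g j` (`montel`); divergence from `no_limit` (`cd (g j y₀) (x j) → 0`) and `taut`; `prop` with the moving
points `g' j (x j)` gives `MOD y₀`, `P = b p ∘ t` near `y₀`, so `Eqs ∘ P = 0` (`ident`), and
`X \ {h0 ∘ tP = 0}` is connected (`small_zero`, `Small.preconn`). -/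
theorem Geo.Datum.ini (h : G.OK R) (u : Up n X π) (hc : Coc X) {p : Amb A B} (hz : p ∈ G.Z) (hn : G.nd p)
    {W N : Set (Amb A B)} {σ : Amb A B → E} (d : G.Datum X π p W N σ) :
    ∃ S : Sq E A B, S.OK G X π ∧ ∃ y₀ m₀, S.P y₀ = p ∧ S.MOD G X π y₀ m₀ := by
  classical
  obtain ⟨K, cK, KX, hK⟩ := hc
  obtain ⟨x₀, hx₀⟩ := u.cm.conn.nonempty
  have g := (h.good hz hn).self_of_nhds.self_of_nhds
  let m₀ : Amb A B := (I, 0, p.2.2)
  have hm₀ : G.InM p m₀ := by simp [Geo.InM, Geo.Q, m₀]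
  let lam : ℕ → ℝ := fun j => 1 / ((j : ℝ) + 1)
  have hp : ∀ j, 0 < lam j := fun j => by positivity
  let U := Ultrafilter.of (atTop : Filter ℕ)
  have h0 : Tendsto lam U (𝓝 0) := tendsto_one_div_add_atTop_nhds_zero_nat.mono_left (Ultrafilter.of_le _)
  let q : ℕ → Amb A B := fun j => G.ico p (sc (lam j) m₀)
  have tq : Tendsto q U (𝓝 p) := by
    have := (g.tendsto_ico (m := m₀)).comp (h0.prodMk_nhds tendsto_const_nhds)
    rwa [show G.b p m₀.2.2 = p from h.bz p hz] at this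
  have hq : ∀ᶠ j in U, q j ∈ W ∩ {q | 0 < G.r p q} := (tq.eventually (d.oW.mem_nhds d.zW)).and
    ((tendsto_nhdsWithin_iff.2 ⟨h0.prodMk_nhds tendsto_const_nhds, Eventually.of_forall fun j => ⟨hp j, trivial⟩⟩
      : Tendsto (fun j => (lam j, m₀)) U (𝓝[Ioi 0 ×ˢ univ] (0, m₀))).eventually ((g.scale m₀ rfl).1 hm₀))
  let x : ℕ → E := fun j => if q j ∈ W ∩ {q | 0 < G.r p q} then σ (q j) else x₀
  have hx : ∀ j, x j ∈ X := fun j => by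
    simp only [x]; split_ifs with k
    exacts [(d.sec.2 _ k).1, hx₀]
  choose f f' bih hf using fun j => hK (x j) (hx j)
  have H1 : ∀ᶠ j in U, q j ∈ W ∩ {q | 0 < G.r p q} ∧ f' j (f j (x j)) = σ (q j) := hq.mono fun j hj =>
    ⟨hj, ((bih j).gf _ (hx j)).trans (if_pos hj)⟩
  obtain ⟨y₀, hy₀, ty⟩ := cK.ultrafilter_le_nhds' (U.map fun j => f j (x j)) (Ultrafilter.mem_map.2 (univ_mem' hf))
  replace hy₀ := KX hy₀
  replace ty : Tendsto (fun j => f j (x j)) U (𝓝[X] y₀) :=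
    tendsto_nhdsWithin_iff.2 ⟨ty, Eventually.of_forall fun j => KX (hf j)⟩
  obtain ⟨C, hC⟩ := u.bdd.exists_norm_le
  obtain ⟨P, aP, cP⟩ := montel u.cm.mfd U (f := fun j y => π (f' j y)) fun y _ => ⟨univ, univ_mem, C,
    Eventually.of_forall fun j => ⟨(u.an.comp (bih j).ag (bih j).mg).mono inter_subset_left,
      fun y hy => hC _ ⟨_, (bih j).mg hy.1, rfl⟩⟩⟩
  have tπ : Tendsto (fun j => π (f' j (f j (x j)))) U (𝓝 p) :=
    tq.congr' (H1.mono fun j hj => by simp only [hj.2, (d.sec.2 _ hj.1).2])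
  have eP : P y₀ = p := tendsto_nhds_unique (tendsto_moving cP hy₀ (aP.continuousOn _ hy₀) ty) tπ
  let S : Sq E A B := ⟨U, lam, f', f, P⟩
  have eS : S.P y₀ = p := eP
  obtain ⟨W₀, hW₀, -, hprop⟩ := d.prop h u hz hn
  obtain ⟨O, oO, xO, cO, hO⟩ := exists_piece u.cm.mfd cP hy₀ (aP.continuousOn _ hy₀) (eP ▸ hW₀)
  obtain ⟨Φ, aΦ, eΦ, -, lΦ, fΦ, -⟩ := hprop S hp h0 (fun j => (bih j).symm) O oO cO hO y₀ _ m₀ ⟨hy₀, xO⟩ ty
    (H1.mono fun j hj => by simp only [S]; rw [hj.2, (d.sec.2 _ hj.1).2]; exact ⟨hj.1.2, rfl⟩)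
    (tendsto_const_nhds.congr' (H1.mono fun j hj => by
      simp only [S, Sq.Ph, hj.2, (d.sec.2 _ hj.1).2]
      rw [(g.co (sc (lam j) m₀) rfl).2.2.2, sc_inv_sc (hp j).ne']))
  have nO : X ∩ O ∈ 𝓝[X] y₀ := inter_mem_nhdsWithin _ (oO.mem_nhds xO)
  have hZ : ∀ᶠ y in 𝓝[X] y₀, P y ∈ G.Z := by
    have t := (continuous_snd.snd.tendsto _).comp ((aΦ _ ⟨hy₀, xO⟩).mono_of_mem_nhdsWithin nO).continuousWithinAt.tendsto
    rw [eΦ] at t
    filter_upwards [nO, t.eventually (h.bt p hz)] with y h1 h2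
    exact tendsto_nhds_unique (lΦ y h1).2 (cP.tendsto_at h1.1) ▸ h2.2
  have eqs : ∀ y ∈ X, ∀ e ∈ G.Eqs, e (P y) = 0 := fun y hy e he => ident u.cm.mfd u.cm.conn.isPreconnected
    ((h.anE e he).comp_analyticOn aP (mapsTo_univ _ _)) analyticOn_const hy₀
    (hZ.mono fun y hy => (connectedComponentIn_subset _ _ hy).1 e he) y hy
  refine ⟨S, ⟨hp, h0, fun j => (bih j).symm, aP, cP, fun y hy x' hx' t => ?_, eqs, fun y hy hne => ?_⟩, y₀, m₀, eP,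
    hy₀, eS.symm ▸ hz, eS.symm ▸ hn, W, N, σ, eS.symm ▸ d, ?_⟩
  · obtain ⟨C', hC'⟩ := u.cm.bdd.exists_norm_le
    obtain ⟨L, aL, cL⟩ := montel u.cm.mfd U (f := f') fun y _ => ⟨univ, univ_mem, C',
      Eventually.of_forall fun j => ⟨(bih j).ag.mono inter_subset_left, fun y hy => hC' _ ((bih j).mg hy.1)⟩⟩
    have mL := taut u.cm u.cm.mfd u.cm.conn.isPreconnected (f := f') (fun y _ => ⟨univ, univ_mem,
      Eventually.of_forall fun j => ⟨(bih j).ag.mono inter_subset_left, (bih j).mg.mono_left inter_subset_left⟩⟩)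
      (fun y hy => cL.tendsto_at hy) hy (tendsto_nhds_unique t (cL.tendsto_at hy) ▸ hx')
    have t2 := tendsto_moving cL hy₀ (aL.continuousOn _ hy₀) ty
    exact d.no_limit h u hz hn (mL hy₀) (tendsto_nhds_unique ((u.an.continuousOn _ (mL hy₀)).tendsto.comp
      (tendsto_nhdsWithin_iff.2 ⟨t2, Eventually.of_forall fun j => (bih j).mg (KX (hf j))⟩)) tπ)
      (mem_closure_of_tendsto t2 (H1.mono fun j hj => ⟨_, hj.1, hj.2.symm⟩))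
  · have hp0 : G.h0 (P y₀).2.2 ≠ 0 := eP.symm ▸ (connectedComponentIn_subset _ _ hz).2
    obtain ⟨sm, cl⟩ := small_zero u.cm.mfd u.cm.conn.isPreconnected (f := fun y => G.h0 (P y).2.2)
      (fun y hy => ((h.anh _ trivial).comp (analyticAt_snd.comp analyticAt_snd)).comp_analyticWithinAt (aP y hy))
      ⟨y₀, hy₀, hp0⟩
    have := ((sm.preconn u.cm.mfd u.cm.conn.isPreconnected cl).image P
      (aP.continuousOn.mono sdiff_subset)).subset_connectedComponentIn (F := {z | (∀ f ∈ G.Eqs, f z = 0) ∧ G.h0 z.2.2 ≠ 0})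
      ⟨y₀, ⟨hy₀, hp0⟩, eP⟩ (by rintro _ ⟨y, hy, rfl⟩; exact ⟨eqs y hy.1, hy.2⟩)
    rw [Geo.Z, connectedComponentIn_eq hz]
    exact this ⟨y, ⟨hy, hne⟩, rfl⟩
  · have := fΦ y₀ ⟨hy₀, xO⟩ (eΦ.symm ▸ hm₀)
    rw [eΦ] at this
    exact eS.symm ▸ this

end Crest.Agent.R264
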