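import Crest.Agent.R264.Model.Co
import Crest.Agent.R264.Model.Lim.Disc

set_option autoImplicit false
set_option linter.unusedSectionVars false
open Set Filter Topology Metric Complex

namespace Crest.Agent.R264

variable {E : Type} [NormedAddCommGroup E] [NormedSpace ℂ E] [NormedSpace ℝ E] [IsScalarTower ℝ ℂ E]
  [FiniteDimensional ℂ E] {A B : Type} [Fintype A] [Fintype B] {G : Geo A B} {R : Amb A B → ℝ} {n : ℕ} {X : Set E}
  {π : E → Amb A B} {S : Sq E A B}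

theorem Geo.Q_herm (G : Geo A B) (z : Amb A B) (ζ : ℂ) (u : A → ℂ) :
    G.Q z (ζ • u) + G.Q z (I • ζ • u) = ‖ζ‖ ^ 2 * (G.Q z u + G.Q z (I • u)) := by
  have e1 : ζ • u = ζ.re • u + ζ.im • (I • u) := by
    ext i; simp only [Pi.smul_apply, Pi.add_apply, smul_eq_mul, real_smul]
    linear_combination -u i * re_add_im ζ
  have e2 : I • ζ • u = ζ.re • (I • u) - ζ.im • u := by
    ext i; simp only [Pi.smul_apply, Pi.sub_apply, smul_eq_mul, real_smul]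
    linear_combination -I * u i * re_add_im ζ + ζ.im * u i * I_mul_I
  rw [e2, e1, Complex.sq_norm, normSq_apply]
  simp only [Geo.Q, map_add, map_sub, map_smul, add_apply, sub_apply, smul_apply,
    add_im, sub_im, smul_im, smul_eq_mul]
  ring

theorem Geo.OK.co_add (h : G.OK R) {z : Amb A B} (hz : z ∈ G.Z) (α : ℂ) (v : A → ℂ) :
    G.co z (z + (α, v, 0)) = (G.th z (α, v), v, z.2.2) := by
  simp [Geo.co, h.bz z hz]

theorem Geo.OK.rexp' (h : G.OK R) {z : Amb A B} (hz : z ∈ G.Z) (hn : G.nd z) {J : Type} {l : Filter J} {α : J → ℂ}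
    {v : J → A → ℂ} (hα : Tendsto α l (𝓝 0)) (hv : Tendsto v l (𝓝 0)) {ε : ℝ} (hε : 0 < ε) : ∀ᶠ j in l,
    |G.r z (z + (α j, v j, 0)) - ((G.th z (α j, v j)).im - G.Q z (v j))| ≤
      ε * (‖G.th z (α j, v j)‖ + ‖v j‖ ^ 2) := by
  have t : Tendsto (fun j => z + (α j, v j, 0)) l (𝓝 z) := by
    simpa [Prod.mk_zero_zero] using (hα.prodMk_nhds (hv.prodMk_nhds (tendsto_const_nhds (x := (0 : B → ℂ))))).const_add z
  refine (t.eventually (h.rexp z hz hn ε hε)).mono fun j hj => ?_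
  simpa [h.co_add hz, h.bz z hz] using hj

theorem Geo.OK.fderiv_r (h : G.OK R) {z : Amb A B} (hz : z ∈ G.Z) (hn : G.nd z) (α : ℂ) (v : A → ℂ) :
    fderiv ℝ (G.r z) z (α, v, 0) = (G.th z (α, v)).im := by
  have h1 : HasDerivAt (fun s : ℝ => G.r z (z + s • (α, v, 0))) (fderiv ℝ (G.r z) z (α, v, 0)) 0 :=
    (HasFDerivAt.comp_hasDerivAt (l := G.r z) (0 : ℝ) (by simpa using (h.anr z hz hn).differentiableAt.hasFDerivAt)
      (((hasDerivAt_id (0 : ℝ)).smul_const ((α, v, 0) : Amb A B)).const_add z)).congr_deriv (by simp)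
  have h2 : HasDerivAt (fun s : ℝ => G.r z (z + s • (α, v, 0)) - (s * (G.th z (α, v)).im - s ^ 2 * G.Q z v)) 0 0 := by
    refine hasDerivAt_iff_isLittleO.2 (Asymptotics.isLittleO_iff.2 fun c hc => ?_)
    have t : ∀ {V : Type} [NormedAddCommGroup V] [NormedSpace ℝ V] (w : V), Tendsto (fun s : ℝ => s • w) (𝓝 0) (𝓝 0) :=
      fun w => by simpa using (tendsto_id (x := 𝓝 (0 : ℝ))).smul_const w
    filter_upwards [h.rexp' hz hn (t α) (t v) (ε := c / (‖G.th z (α, v)‖ + ‖v‖ ^ 2 + 1)) (by positivity),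
      closedBall_mem_nhds (0 : ℝ) one_pos] with s hs hs1
    have e : G.th z (s • α, s • v) = s • G.th z (α, v) := by rw [← Prod.smul_mk, (G.th z).map_smul_of_tower]
    rw [e, G.Q_smul, norm_smul, norm_smul, smul_im, smul_eq_mul, mul_pow, div_mul_eq_mul_div, le_div_iff₀ (by positivity),
      show ((s • α, s • v, 0) : Amb A B) = s • (α, v, 0) by simp] at hs
    have h0 := norm_nonneg s
    have h3 : ‖s‖ ^ 2 ≤ ‖s‖ := by nlinarith [mem_closedBall_zero_iff.1 hs1]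
    simp only [zero_smul, add_zero, (h.r_self hz hn).1, zero_mul, sub_zero, smul_zero, ne_eq, OfNat.ofNat_ne_zero,
      not_false_eq_true, zero_pow, Real.norm_eq_abs] at hs h0 h3 ⊢
    refine le_of_mul_le_mul_right (hs.trans ?_) (by positivity : 0 < ‖G.th z (α, v)‖ + ‖v‖ ^ 2 + 1)
    rw [mul_assoc]
    refine mul_le_mul_of_nonneg_left ?_ hc.le
    nlinarith [mul_le_mul_of_nonneg_right h3 (sq_nonneg ‖v‖)]
  have h3 := (h1.sub (((hasDerivAt_id (0 : ℝ)).mul_const (G.th z (α, v)).im).sub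
    ((hasDerivAt_pow 2 (0 : ℝ)).mul_const (G.Q z v)))).unique h2
  simpa [sub_eq_zero] using h3

/-- Pseudoconvexity.  See `Blueprint.lean`, Model 1. -/
theorem Geo.Datum.pos (h : G.OK R) (u : Up n X π) {z : Amb A B} (hz : z ∈ G.Z) (hn : G.nd z) {W N : Set (Amb A B)}
    {σ : Amb A B → E} (d : G.Datum X π z W N σ) : G.Pos z := by
  obtain ⟨⟨Sq, hSq⟩, hpos, -⟩ := h.split hz hn
  refine hpos fun u₀ => not_lt.1 fun hneg => ?_
  have h10 := h.th0 z hz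
  have hth : ∀ (α : ℂ) (v : A → ℂ), G.th z (α, v) = α * G.th z (1, 0) + G.th z (0, v) := fun α v => by
    rw [← smul_eq_mul, ← map_smul, ← map_add]; simp
  obtain ⟨κ, hκ, hκ'⟩ : ∃ κ, 0 < κ ∧ G.Q z u₀ + G.Q z (I • u₀) = -(8 * κ) := ⟨-(G.Q z u₀ + G.Q z (I • u₀)) / 8,
    by linarith, by ring⟩
  obtain ⟨a₀, ha₀⟩ : ∃ a₀, a₀ * G.th z (1, 0) = -G.th z (0, u₀) := ⟨_, div_mul_cancel₀ _ h10⟩
  obtain ⟨s₀, hs₀⟩ : ∃ s₀, s₀ * G.th z (1, 0) = Sq u₀ u₀ := ⟨_, div_mul_cancel₀ _ h10⟩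
  have hs : ∀ ζ : ℂ, G.th z (0, ζ • u₀) = ζ * G.th z (0, u₀) := fun ζ => by rw [← smul_eq_mul, ← map_smul]; simp
  obtain ⟨a, ha, H⟩ := exists_discs (e := (I / G.th z (1, 0), 0, 0)) (v := (a₀, u₀, 0)) (s := (s₀, 0, 0))
    (h.anr z hz hn) (by rw [h.fderiv_r hz hn, hth, div_mul_cancel₀ _ h10]; simp [Prod.mk_zero_zero]) (fun ζ => by
      rw [show ζ • ((a₀, u₀, 0) : Amb A B) = (ζ * a₀, ζ • u₀, 0) by simp, h.fderiv_r hz hn, hth, hs, mul_assoc, ha₀]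
      simp) hκ (by
      have t1 : Tendsto (fun ζ : ℂ => ζ * a₀ + ζ ^ 2 * s₀) (𝓝 0) (𝓝 0) :=
        Continuous.tendsto' (by fun_prop) _ _ (by simp)
      have t2 : Tendsto (fun ζ : ℂ => ζ • u₀) (𝓝 0) (𝓝 0) := Continuous.tendsto' (by fun_prop) _ _ (by simp)
      filter_upwards [h.rexp' hz hn t1 t2 (ε := 2 * κ / (‖Sq u₀ u₀‖ + ‖u₀‖ ^ 2 + 1)) (by positivity)] with ζ hζ
      have e : G.th z (ζ * a₀ + ζ ^ 2 * s₀, ζ • u₀) = ζ ^ 2 * Sq u₀ u₀ := by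
        rw [hth, hs]; linear_combination ζ * ha₀ + ζ ^ 2 * hs₀
      have e2 : Sq (ζ • u₀) (ζ • u₀) = ζ ^ 2 * Sq u₀ u₀ := by simp [sq, mul_assoc]
      rw [e, hSq, G.Q_herm, e2, hκ', norm_mul, norm_pow, norm_smul, mul_pow, ← mul_add, mul_left_comm] at hζ
      have e3 : 2 * κ / (‖Sq u₀ u₀‖ + ‖u₀‖ ^ 2 + 1) * (‖Sq u₀ u₀‖ + ‖u₀‖ ^ 2) ≤ 2 * κ := by
        rw [div_mul_eq_mul_div, div_le_iff₀ (by positivity)]; nlinarith
      rw [(h.r_self hz hn).1, show z + ζ • ((a₀, u₀, 0) : Amb A B) + ζ ^ 2 • (s₀, 0, 0) =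
        z + (ζ * a₀ + ζ ^ 2 * s₀, ζ • u₀, 0) by simp [add_assoc]]
      nlinarith [(abs_le.1 hζ).1, mul_le_mul_of_nonneg_left e3 (sq_nonneg ‖ζ‖)])
  let Γ : Amb A B → ℂ → Amb A B := fun q ζ => q + ζ • a q + ζ ^ 2 • (s₀, 0, 0)
  have hΓ : ∀ q ζ, ContinuousAt a q → ContinuousAt (fun x : Amb A B × ℂ => Γ x.1 x.2) (q, ζ) := fun q ζ hq =>
    (continuousAt_fst.add (continuousAt_snd.smul (hq.comp_of_eq continuousAt_fst rfl))).add (by fun_prop)
  have H2 := H.and ((hΓ z 0 ha.continuousAt).eventually (d.oW.mem_nhds (by simpa [Γ, Prod.mk_zero_zero] using d.zW)))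
  rw [nhds_prod_eq, eventually_prod_iff] at H2
  obtain ⟨pa, hpa, pb, hpb, H2⟩ := H2
  obtain ⟨ρ, hρ, hpb⟩ := nhds_basis_closedBall.eventually_iff.1 hpb
  obtain ⟨W₁, oW₁, zW₁, -, -, -, -, -, -, -, hcl⟩ := half_box (h.anr z hz hn) (h.r_self hz hn).1 (h.r_self hz hn).2.1
    univ_mem
  have hR := Reg_eq_Sub u.cm.mfd u.dim π
  have hsm := (small_not_sub u.cm.mfd u.cm.conn.isPreconnected u.an (hR ▸ u.reg)).1.union
    (d.sm.preimage u.cm.mfd u.an (mapsTo_univ _ _))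
  obtain ⟨q, ⟨hq0, hq⟩, ⟨hq1, hq2⟩, hq3, hq4⟩ := ((hsm.not_hyp u.cm.mfd u.an u.dim.ge (h.anr z hz hn)
    (h.r_self hz hn).1 (h.r_self hz hn).2.1).and_eventually ((hpa.eventually_nhds.and (oW₁.mem_nhds zW₁)).and
      (ha.eventually_analyticAt.and (d.oW.mem_nhds d.zW)))).exists
  have := mem_closure_iff_nhdsWithin_neBot.1 (hcl q hq2 hq0).1
  have hU := Ultrafilter.of_le (𝓝[W₁ ∩ {x | 0 < G.r z x}] q)
  have oV : IsOpen (W ∩ {q | 0 < G.r z q}) := d.anr.continuousOn.isOpen_inter_preimage d.oW isOpen_Ioi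
  have hin : ∀ᶠ p in Ultrafilter.of (𝓝[W₁ ∩ {x | 0 < G.r z x}] q), ∀ ζ ∈ closedBall (0 : ℂ) ρ,
      Γ p ζ ∈ W ∩ {q | 0 < G.r z q} := ((hq1.filter_mono nhdsWithin_le_nhds).and self_mem_nhdsWithin).filter_mono hU |>.mono
    fun p hp ζ hζ => ⟨(H2 hp.1 (hpb hζ)).2, (add_pos_of_pos_of_nonneg hp.2.2 (by positivity)).trans_le
      (H2 hp.1 (hpb hζ)).1⟩
  obtain ⟨x, hx, t⟩ := disc_limit u.cm oV d.sec.1 (fun q hq => (d.sec.2 q hq).1) _ (hU.trans nhdsWithin_le_nhds)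
    (Γ := Γ) hρ (fun p => by fun_prop) (fun ζ hζ => by
      have k := H2 hq1.self_of_nhds (hpb (sphere_subset_closedBall hζ))
      refine ⟨hΓ q ζ hq3.continuousAt, k.2, lt_of_lt_of_le ?_ k.1⟩
      rw [hq0, mem_sphere_zero_iff_norm.1 hζ]; positivity) hin
  have hin0 := hin.mono fun p hp => hp 0 (mem_closedBall_self hρ.le)
  have e : π x = q := tendsto_nhds_unique ((u.an.continuousOn x hx).tendsto.comp (tendsto_nhdsWithin_iff.2
    ⟨t, hin0.mono fun p hp => (d.sec.2 _ hp).1⟩)) (Tendsto.congr' (hin0.mono fun p hp => by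
      simpa [Γ, Prod.mk_zero_zero] using (d.sec.2 _ hp).2.symm) (hU.trans nhdsWithin_le_nhds))
  have hS : x ∈ Sub X π := not_not.1 fun k => hq ⟨x, ⟨Or.inl k, hx⟩, e⟩
  exact d.wall x (hR ▸ hS) (e ▸ hq4) (e ▸ hq0) (fun k => hq ⟨x, ⟨Or.inr ⟨hx, k, fun c _ => hS.2 c⟩, hx⟩, e⟩)
    (mem_closure_of_tendsto t (hin0.mono fun p hp => ⟨_, hp, rfl⟩))

/-- No limit point in `X` over `z`: by `trap` and `barrier`, `w' ∘ π` takes values in the sector near `x` and vanishes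
at `x`, so vanishes near `x` (`sect_zero`); but near `x` there are points of the section, near which `π` is open. -/
theorem Geo.Datum.no_limit (h : G.OK R) (u : Up n X π) {z : Amb A B} (hz : z ∈ G.Z) (hn : G.nd z)
    {W N : Set (Amb A B)} {σ : Amb A B → E} (d : G.Datum X π z W N σ) {x : E} (hx : x ∈ X) (hxz : π x = z) :
    x ∉ closure (σ '' (W ∩ {q | 0 < G.r z q})) := by
  intro hcl
  obtain ⟨Sq, c, hc, hb, -⟩ := h.barrier hz hn (d.pos h u hz hn)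
  obtain ⟨T, hT, oT, bih, hT'⟩ := h.co_ico hz
  have hT2 : {q : Amb A B | q.2.2 ∈ T} ∈ 𝓝 z := (continuous_snd.snd.tendsto z) hT
  have tπ : Tendsto π (𝓝[X] x) (𝓝 z) := hxz ▸ (u.an.continuousOn x hx).tendsto
  obtain ⟨U, hU, hU'⟩ := mem_nhdsWithin_iff_exists_mem_nhds_inter.1 (tπ (d.oW.mem_nhds d.zW))
  obtain ⟨O, oO, xO, OU, cO, -⟩ := u.cm.mfd.nbhd hx hU
  obtain ⟨_, hq, q, hq', rfl⟩ := mem_closure_iff.1 hcl O oO xO
  have tr := d.trap u oO cO (fun y hy => hU' ⟨OU hy.2, hy.1⟩) hq' hq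
  let w : Amb A B → ℂ := fun q => (G.co z q).1 - Sq (G.co z q).2.1 (G.co z q).2.1
  have aco : AnalyticAt ℂ (G.co z) z := bih.af.analyticAt hT2
  have aw : AnalyticAt ℂ w z := (analyticAt_fst.comp aco).sub
    (Sq.analyticAt_bilinear _ |>.comp₂ (analyticAt_fst.comp (analyticAt_snd.comp aco))
      (analyticAt_fst.comp (analyticAt_snd.comp aco)))
  have z0 := sect_zero u.cm.mfd (f := fun y => w (π y)) hx ((hxz ▸ aw).comp_analyticWithinAt (u.an x hx)) (by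
    filter_upwards [tπ.eventually hb, self_mem_nhdsWithin, nhdsWithin_le_nhds (oO.mem_nhds xO)] with y h1 h2 h3
    exact (h1 (tr y ⟨h2, h3⟩).1).1) (by
    have := (hT' _ (mem_of_mem_nhds hT)).1
    rw [h.bz z hz] at this
    simp [w, hxz, this])
  have oV : IsOpen (W ∩ {q | 0 < G.r z q}) := d.anr.continuousOn.isOpen_inter_preimage d.oW isOpen_Ioi
  obtain ⟨U', hU1, hU2⟩ := mem_nhdsWithin_iff_exists_mem_nhds_inter.1
    ((eventually_eventually_nhdsWithin.2 z0).and (tπ hT2))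
  obtain ⟨_, hp, p, hp', rfl⟩ := mem_closure_iff_nhds.1 hcl U' hU1
  obtain ⟨k1, k2⟩ := hU2 ⟨hp, (d.sec.2 p hp').1⟩
  rw [(d.sec.2 p hp').2] at k2
  have k3 : ∀ᶠ q in 𝓝 p, w q = 0 := by
    rw [← (Sec.nhds u.cm.mfd u.dim u.an oV d.sec hp').2.1, eventually_map] at k1
    filter_upwards [k1, oV.mem_nhds hp'] with q h1 h2
    rwa [(d.sec.2 q h2).2] at h1
  have t : Tendsto (fun s : ℂ => p + (s, 0, 0)) (𝓝[≠] 0) (𝓝 p) :=
    (Continuous.tendsto' (by fun_prop) _ _ (by simp)).mono_left nhdsWithin_le_nhds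
  obtain ⟨s, hs, hs0⟩ := ((t.eventually k3).and self_mem_nhdsWithin).exists
  have e : w (p + (s, 0, 0)) = w p + s * G.th (G.b z p.2.2) (1, 0) := by
    simp only [w, Geo.co, Prod.fst_add, Prod.snd_add, add_zero]
    rw [sub_add_eq_add_sub, ← smul_eq_mul s, ← map_smul, ← map_add]
    simp [add_sub_right_comm]
  rw [e, k3.self_of_nhds, zero_add] at hs
  exact mul_ne_zero hs0 (h.th0 _ (hT' _ k2).2.2.2) hs

end Crest.Agent.R264
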